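import Vale.Agent.P103.Euler

/-! The map storing a phase with high multiplicity at a small scale. -/

namespace Vale.Agent.P103

open Complex

noncomputable abbrev S : ℝ → ℝ := Real.smoothTransition

theorem S0 {x : ℝ} (h : x ≤ 0) : S x = 0 := Real.smoothTransition.zero_of_nonpos h

theorem S1 {x : ℝ} (h : 1 ≤ x) : S x = 1 := Real.smoothTransition.one_of_one_le h

theorem Sn (x : ℝ) : 0 ≤ S x := Real.smoothTransition.nonneg x

theorem Sl (x : ℝ) : S x ≤ 1 := Real.smoothTransition.le_one x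

theorem S_lip : ∃ K : ℝ, 0 ≤ K ∧ ∀ a b, |S a - S b| ≤ K * |a - b| := by
  obtain ⟨K, hK⟩ := ((Real.smoothTransition.contDiff (n := 1)).locallyLipschitz.locallyLipschitzOn
    (s := Set.Icc 0 1)).exists_lipschitzOnWith_of_compact isCompact_Icc
  refine ⟨K, K.2, fun a b => ?_⟩
  have := hK.dist_le_mul _ (Set.projIcc 0 1 zero_le_one a).2 _ (Set.projIcc 0 1 zero_le_one b).2
  rw [Real.smoothTransition.projIcc, Real.smoothTransition.projIcc] at this
  exact this.trans (mul_le_mul_of_nonneg_left (Set.abs_projIcc_sub_projIcc _) K.2)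

/-- bounded by one and Lipschitz -/
def BL (f : ℝ × ℂ → ℂ) (L : ℝ) : Prop := (∀ x, ‖f x‖ ≤ 1) ∧ ∀ x y, ‖f x - f y‖ ≤ L * ‖x - y‖

theorem BL.mul {f g : ℝ × ℂ → ℂ} {L L' : ℝ} (h : BL f L) (h' : BL g L') :
    BL (fun x => f x * g x) (L + L') := by
  refine ⟨fun x => (norm_mul_le _ _).trans (mul_le_one₀ (h.1 x) (norm_nonneg _) (h'.1 x)),
    fun x y => ?_⟩
  rw [show f x * g x - f y * g y = (f x - f y) * g x + f y * (g x - g y) by ring, add_mul]
  refine (norm_add_le _ _).trans (add_le_add ?_ ?_) <;> rw [norm_mul]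
  · exact (mul_le_of_le_one_right (norm_nonneg _) (h'.1 x)).trans (h.2 x y)
  · exact (mul_le_of_le_one_left (norm_nonneg _) (h.1 y)).trans (h'.2 x y)

theorem BL.pow {f : ℝ × ℂ → ℂ} {L : ℝ} (h : BL f L) (n : ℕ) : BL (fun x => f x ^ n) (n * L) := by
  induction n with
  | zero => exact ⟨by simp, by simp⟩
  | succ n ih => simpa [pow_succ, add_mul] using ih.mul h

theorem BL_S {K : ℝ} (hK0 : 0 ≤ K) (hK : ∀ a b, |S a - S b| ≤ K * |a - b|) (c d : ℝ) :
    BL (fun x => S (c * x.1 + d)) (K * |c|) := by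
  refine ⟨fun x => by rw [norm_real, Real.norm_of_nonneg (Sn _)]; exact Sl _, fun x y => ?_⟩
  rw [← ofReal_sub, norm_real]
  refine (hK _ _).trans ?_
  rw [add_sub_add_right_eq_sub, ← mul_sub, abs_mul, mul_assoc]
  gcongr
  exact norm_fst_le (x - y)

noncomputable def nn (ξ : ℂ) : ℝ := √(1 + ‖ξ‖ ^ 2)

noncomputable def qq (ξ : ℂ) : ℂ := ξ / nn ξ

theorem nn_sq (ξ : ℂ) : nn ξ ^ 2 = 1 + ‖ξ‖ ^ 2 := Real.sq_sqrt (by positivity)

theorem one_le_nn (ξ : ℂ) : 1 ≤ nn ξ := Real.one_le_sqrt.mpr (by nlinarith [norm_nonneg ξ])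

theorem le_nn (ξ : ℂ) : ‖ξ‖ ≤ nn ξ := Real.le_sqrt_of_sq_le (by linarith)

theorem nn_lip (a b : ℂ) : |nn b - nn a| ≤ ‖a - b‖ := by
  refine le_trans (abs_le_of_sq_le_sq ?_ (abs_nonneg _)) (abs_norm_sub_norm_le a b)
  have : 1 + ‖a‖ * ‖b‖ ≤ nn a * nn b := by
    rw [nn, nn, ← Real.sqrt_mul (by positivity)]
    exact Real.le_sqrt_of_sq_le (by nlinarith [sq_nonneg (‖a‖ - ‖b‖)])
  rw [sq_abs]
  nlinarith [nn_sq a, nn_sq b]

theorem norm_qq (ξ : ℂ) : ‖qq ξ‖ = ‖ξ‖ / nn ξ := by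
  rw [qq, norm_div, norm_real, Real.norm_of_nonneg (by linarith [one_le_nn ξ])]

theorem BL_qq {c : ℝ} (hc : 0 ≤ c) : BL (fun x => qq (c * x.2)) (2 * c) := by
  have h1 : ∀ a, ‖qq a‖ ≤ 1 := fun a =>
    (norm_qq a).trans_le (div_le_one_of_le₀ (le_nn a) (by linarith [one_le_nn a]))
  have h2 : ∀ a b, ‖qq a - qq b‖ ≤ 2 * ‖a - b‖ := fun a b => by
    have ha := one_le_nn a
    have hb := one_le_nn b
    have : qq a - qq b = ((a - b) + qq b * (nn b - nn a : ℝ)) / nn a := by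
      have : (nn a : ℂ) ≠ 0 := by exact_mod_cast (by linarith)
      have : (nn b : ℂ) ≠ 0 := by exact_mod_cast (by linarith)
      simp only [qq]
      push_cast
      field_simp
      ring
    rw [this, norm_div, norm_real, Real.norm_of_nonneg (by linarith)]
    refine (div_le_self (norm_nonneg _) ha).trans ((norm_add_le _ _).trans ?_)
    rw [norm_mul, norm_real, Real.norm_eq_abs]
    nlinarith [nn_lip a b, h1 b, abs_nonneg (nn b - nn a), norm_nonneg (qq b)]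
  refine ⟨fun x => h1 _, fun x y => (h2 _ _).trans ?_⟩
  rw [← mul_sub, norm_mul, norm_real, Real.norm_of_nonneg hc, mul_assoc]
  gcongr
  exact norm_snd_le (x - y)

@[fun_prop] theorem qq_contDiff : ContDiff ℝ 1 qq := by
  have h1 : ContDiff ℝ 1 nn := (contDiff_const.add (contDiff_norm_sq ℂ)).sqrt fun x => by positivity
  have h2 := (h1.inv fun x => by linarith [one_le_nn x]).smul contDiff_id
  refine (show qq = _ from funext fun x => ?_) ▸ h2
  simp [qq, div_eq_inv_mul]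

noncomputable def bt (j : ℕ) (μ : ℝ) : ℂ :=
  S (2 * (j + 9) ^ 2 * μ + -(2 * (j + 9))) * S (-(2 * (j + 9) * (j + 7)) * μ + 2 * (j + 9))

noncomputable def term (j : ℕ) (x : ℝ × ℂ) : ℂ :=
  (1 / 64 * (1 / 8) ^ j : ℝ) * (bt j x.1 * qq ((65536 * 2 ^ j : ℝ) * x.2) ^ (2 ^ (j + 1)))

noncomputable def GG (k : Bool) (x : ℝ × ℂ) : ℂ := ∑' j, if j.bodd = k then term j x else 0

theorem sq_le_pow (j : ℕ) : ((j : ℝ) + 9) ^ 2 ≤ 81 * 2 ^ j := by
  induction j with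
  | zero => norm_num
  | succ j ih =>
    push_cast
    rw [pow_succ 2]
    nlinarith [Nat.cast_nonneg (α := ℝ) j]

@[fun_prop] theorem GG_contDiff (k : Bool) : ContDiff ℝ 1 (GG k) := by
  obtain ⟨K, hK0, hK⟩ := S_lip
  have h1 : ∀ j, ContDiff ℝ 1 (term j) := fun j => by
    unfold term bt
    fun_prop
  have h2 : ∀ j : ℕ, BL (fun x => bt j x.1 * qq ((65536 * 2 ^ j : ℝ) * x.2) ^ (2 ^ (j + 1))) _ :=
    fun j => ((BL_S hK0 hK _ _).mul (BL_S hK0 hK _ _)).mul ((BL_qq (by positivity)).pow _)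
  have h3 : ∀ j x y, ‖term j x‖ ≤ (1 / 2) ^ j ∧
      ‖term j x - term j y‖ ≤ (6 * K + 4096) * (1 / 2) ^ j * ‖x - y‖ := by
    intro j x y
    have e : ((1 : ℝ) / 8) ^ j = (1 / 2) ^ j * ((2 ^ j)⁻¹ * (2 ^ j)⁻¹) := by
      rw [← inv_pow, ← mul_pow, ← mul_pow]; norm_num
    have hj : (1 : ℝ) ≤ 2 ^ j := one_le_pow₀ one_le_two
    rw [term, term, ← mul_sub, norm_mul ((_ : ℝ) : ℂ), norm_mul ((_ : ℝ) : ℂ), norm_real,
      Real.norm_of_nonneg (by positivity)]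
    constructor
    · refine (mul_le_of_le_one_right (by positivity) ((h2 j).1 x)).trans ?_
      have : ((1 : ℝ) / 8) ^ j ≤ (1 / 2) ^ j := by gcongr; norm_num
      have : (0 : ℝ) ≤ (1 / 2) ^ j := by positivity
      linarith
    · refine (mul_le_mul_of_nonneg_left ((h2 j).2 x y) (by positivity)).trans ?_
      rw [← mul_assoc, e, abs_neg, abs_of_nonneg (by positivity), abs_of_nonneg (by positivity)]
      refine mul_le_mul_of_nonneg_right ?_ (norm_nonneg _)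
      rw [mul_comm (1 / 64 : ℝ), mul_assoc, mul_assoc, mul_comm]
      refine mul_le_mul_of_nonneg_right ?_ (by positivity)
      rw [← mul_inv, inv_mul_le_iff₀ (by positivity)]
      push_cast
      have h4 := sq_le_pow j
      have h5 : (2 : ℝ) ^ j ≤ 2 ^ j * 2 ^ j := le_mul_of_one_le_left (by positivity) hj
      have h6 : 2 * ((j : ℝ) + 9) ^ 2 + 2 * (j + 9) * (j + 7) ≤ 324 * (2 ^ j * 2 ^ j) := by
        nlinarith [Nat.cast_nonneg (α := ℝ) j]
      have h7 := mul_le_mul_of_nonneg_left h6 hK0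
      have h8 : 0 ≤ K * (2 ^ j * 2 ^ j) := by positivity
      rw [pow_succ 2]
      nlinarith
  refine contDiff_tsum (N := 1) (v := fun _ j => (6 * K + 4096) * (1 / 2) ^ j) (fun j => ?_)
    (fun _ _ => summable_geometric_two.mul_left _) fun i j x hi => ?_
  · split_ifs
    exacts [h1 j, contDiff_const]
  · split_ifs
    · rcases Nat.le_one_iff_eq_zero_or_eq_one.mp (by exact_mod_cast hi) with rfl | rfl
      · rw [norm_iteratedFDeriv_zero]
        exact (h3 j x x).1.trans (le_mul_of_one_le_left (by positivity) (by linarith))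
      · rw [norm_iteratedFDeriv_one]
        exact norm_fderiv_le_of_lip' ℝ (by positivity)
          (Filter.Eventually.of_forall fun y => (h3 j y x).2)
    · rw [iteratedFDeriv_fun_zero, Pi.zero_apply, norm_zero]
      positivity

theorem GG_zero (k : Bool) (μ : ℝ) : GG k (μ, 0) = 0 := by simp [GG, term, qq]

theorem bt_zero {j : ℕ} {μ : ℝ} (hμ : 0 < μ) (h : 1 ≤ |μ⁻¹ - 8 - j|) : bt j μ = 0 := by
  have h0 := mul_inv_cancel₀ hμ.ne'
  have hj := Nat.cast_nonneg (α := ℝ) j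
  rcases le_abs.mp h with h | h
  · have : (j + 9) * μ ≤ 1 := by nlinarith
    rw [bt, S0 (by nlinarith)]
    simp
  · have : 1 ≤ (j + 7) * μ := by nlinarith
    rw [bt, S0 (x := _ + 2 * _) (by nlinarith)]
    simp

theorem bt_one {j : ℕ} {μ : ℝ} (hμ : 0 < μ) (h : |μ⁻¹ - 8 - j| ≤ 1 / 2) : bt j μ = 1 := by
  have h0 := mul_inv_cancel₀ hμ.ne'
  have hj := Nat.cast_nonneg (α := ℝ) j
  obtain ⟨h1, h2⟩ := abs_le.mp h
  have a : 1 ≤ (j + 17 / 2) * μ := by nlinarith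
  have b : (j + 15 / 2) * μ ≤ 1 := by nlinarith
  rw [bt, S1 (by nlinarith), S1 (by nlinarith)]
  simp

theorem GG_eq {j : ℕ} {μ : ℝ} (hμ : 0 < μ) (h : |μ⁻¹ - 8 - j| ≤ 1) (ζ : ℂ) :
    GG j.bodd (μ, ζ) = term j (μ, ζ) := by
  rw [GG, tsum_eq_single j, if_pos rfl]
  intro i hi
  split_ifs with e
  · have h1 : i + 2 ≤ j ∨ j + 2 ≤ i := by
      have := Nat.bodd_add_div2 i
      have := Nat.bodd_add_div2 j
      rw [e] at *
      omega
    obtain ⟨h2, h3⟩ := abs_le.mp h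
    rw [term, bt_zero hμ (le_abs.mpr (h1.imp (fun h1 => ?_) fun h1 => ?_))]
    · simp
    all_goals
      have := (Nat.cast_le (α := ℝ)).mpr h1
      push_cast at this
      linarith
  · rfl

theorem GG_phase {j : ℕ} {μ s : ℝ} {ω : ℂ} (hμ : 0 < μ) (h : |μ⁻¹ - 8 - j| ≤ 1) (hs : 0 ≤ s)
    (hω : ‖ω‖ = 1) : ∃ a : ℝ, 0 ≤ a ∧ a ≤ 1 / 64 * (1 / 8) ^ j ∧
      GG j.bodd (μ, s * ω) = a * (ω ^ 2) ^ 2 ^ j ∧
      (|μ⁻¹ - 8 - j| ≤ 1 / 2 → 1 ≤ (4096 * (j + 9) * s) ^ 2 → 1 / 128 * (1 / 8) ^ j ≤ a) := by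
  set ξ : ℂ := (65536 * 2 ^ j : ℝ) * (s * ω) with hξ
  have h1 : ‖ξ‖ = 65536 * 2 ^ j * s := by
    rw [hξ, norm_mul, norm_mul, hω, norm_real, norm_real, Real.norm_of_nonneg (by positivity),
      Real.norm_of_nonneg hs, mul_one]
  have h0 := one_le_nn ξ
  have h2 : ‖ξ‖ / nn ξ ≤ 1 := div_le_one_of_le₀ (le_nn _) (by linarith)
  have h3 := pow_le_one₀ (n := 2 ^ (j + 1)) (by positivity) h2
  refine ⟨1 / 64 * (1 / 8) ^ j * ((bt j μ).re * (‖ξ‖ / nn ξ) ^ 2 ^ (j + 1)), ?_, ?_, ?_,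
    fun e e' => ?_⟩
  · simp only [bt, ← ofReal_mul, ofReal_re]
    exact mul_nonneg (by positivity) (mul_nonneg (mul_nonneg (Sn _) (Sn _)) (by positivity))
  · simp only [bt, ← ofReal_mul, ofReal_re]
    exact mul_le_of_le_one_right (by positivity) (mul_le_one₀ (mul_le_one₀ (Sl _) (Sn _) (Sl _))
      (by positivity) h3)
  · rw [GG_eq hμ h, term, ← pow_mul, ← pow_succ', qq, ← hξ, h1]
    simp only [bt, ← ofReal_mul, ofReal_re]
    push_cast
    rw [hξ]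
    push_cast
    ring
  · rw [bt_one hμ e, one_re, one_mul, pow_succ', pow_mul, div_pow ‖ξ‖, nn_sq]
    have h4 := one_add_mul_le_pow (a := -(1 / (1 + ‖ξ‖ ^ 2))) (by
      have : 1 / (1 + ‖ξ‖ ^ 2) ≤ 1 := div_le_one_of_le₀ (by nlinarith) (by positivity)
      linarith) (2 ^ j)
    rw [show 1 + -(1 / (1 + ‖ξ‖ ^ 2)) = ‖ξ‖ ^ 2 / (1 + ‖ξ‖ ^ 2) by field_simp; ring] at h4
    have h5 : ((2 ^ j : ℕ) : ℝ) * (1 / (1 + ‖ξ‖ ^ 2)) ≤ 1 / 2 := by
      rw [mul_one_div, div_le_iff₀ (by positivity), h1]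
      push_cast
      have h6 := sq_le_pow j
      have h7 : (0 : ℝ) < 2 ^ j := by positivity
      have h8 : 1 ≤ 4096 ^ 2 * (81 * 2 ^ j) * s ^ 2 := by
        refine e'.trans ?_
        rw [mul_pow, mul_pow]
        gcongr
      nlinarith [mul_le_mul_of_nonneg_left h8 h7.le, sq_nonneg (2 ^ j * s)]
    have : (0 : ℝ) < (1 / 8) ^ j := by positivity
    nlinarith

end Vale.Agent.P103
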