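import Vale.Agent.P103.Defs

/-! Singular chains and cochains. -/

namespace Vale.Agent.P103

open CategoryTheory Limits AlgebraicTopology HomologicalComplex
open scoped Simplicial

abbrev RR : ModuleCat.{0} ℝ := ModuleCat.of ℝ ℝ

theorem eigen {K : ChainComplex (ModuleCat.{0} ℝ) ℕ} (φ : K ⟶ K) (c : RR ⟶ K.X 2)
    (hc : c ≫ K.d 2 1 = 0) (b : RR ⟶ K.X 3) (hb : c ≫ φ.f 2 = c + c + b ≫ K.d 3 2)
    (e : K.X 2 ⟶ RR) (he : K.d 3 2 ≫ e = 0) (hce : c ≫ e ≠ 0) :
    ∃ x : K.homology 2, x ≠ 0 ∧ (homologyMap φ 2).hom x = (2 : ℝ) • x := by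
  let y : RR ⟶ K.homology 2 := K.liftCycles c 1 (by simp) hc ≫ K.homologyπ 2
  have h1 : y ≫ homologyMap φ 2 = y + y := by
    have h2 := K.liftCycles_homologyπ_eq_zero_of_boundary (b ≫ K.d 3 2) 1 (by simp) b rfl
    simp only [y]
    rw [Category.assoc, homologyπ_naturality, ← Category.assoc, ← add_zero (_ + _), ← h2,
      ← Preadditive.add_comp, ← Preadditive.add_comp]
    congr 1
    rw [← cancel_mono (K.iCycles 2)]
    simp [hb]
  refine ⟨y.hom 1, fun h => hce ?_, ?_⟩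
  · have h3 : y = 0 := by ext; simpa using h
    have h4 : y ≫ K.homologyι 2 ≫ K.descOpcycles e 3 (by simp) he = c ≫ e := by simp [y]
    rw [← h4, h3, zero_comp]
  · rw [two_smul]
    exact congrArg (fun g : RR ⟶ K.homology 2 => g.hom 1) h1

abbrev Sx (n : ℕ) : Type := stdSimplex ℝ (Fin (n + 1))

def vx {n : ℕ} (k : Fin (n + 1)) : Sx n := stdSimplex.vertex k

noncomputable def face {n : ℕ} (i : Fin (n + 2)) : C(Sx n, Sx (n + 1)) :=
  ⟨stdSimplex.map i.succAbove, stdSimplex.continuous_map _⟩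

noncomputable abbrev CC : TopCat.{0} ⥤ ChainComplex (ModuleCat.{0} ℝ) ℕ :=
  (singularChainComplexFunctor (ModuleCat.{0} ℝ)).obj RR

variable {X Y : Type} [TopologicalSpace X] [TopologicalSpace Y] {n : ℕ}

noncomputable def ch (σ : C(Sx n, X)) : RR ⟶ (CC.obj (TopCat.of X)).X n :=
  (TopCat.toSSet.obj (TopCat.of X)).ιChainComplex (R := RR)
    (((TopCat.of X).toSSetObjEquiv (Opposite.op ⦋n⦌)).symm σ)

theorem ch_d (σ : C(Sx (n + 1), X)) : ch σ ≫ (CC.obj (TopCat.of X)).d (n + 1) n =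
    ∑ i : Fin (n + 2), (-1) ^ i.val • ch (σ.comp (face i)) :=
  SSet.ιChainComplex_d _ _ _

theorem ch_map (g : C(X, Y)) (σ : C(Sx n, X)) :
    ch σ ≫ (CC.map (TopCat.ofHom g)).f n = ch (g.comp σ) :=
  SSet.ι_chainComplexMap_f _ _ (TopCat.toSSet.map (TopCat.ofHom g)) RR _

theorem ch_ext {T : ModuleCat.{0} ℝ} {a b : (CC.obj (TopCat.of X)).X n ⟶ T}
    (h : ∀ σ, ch σ ≫ a = ch σ ≫ b) : a = b :=
  SSet.chainComplex_hom_ext (X := TopCat.toSSet.obj (TopCat.of X)) fun x => by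
    have := h ((TopCat.of X).toSSetObjEquiv _ x)
    rwa [ch, Equiv.symm_apply_apply] at this

noncomputable def coch (φ : C(Sx n, X) → ℝ) : (CC.obj (TopCat.of X)).X n ⟶ RR :=
  Sigma.desc fun x : (TopCat.toSSet.obj (TopCat.of X)) _⦋n⦌ =>
    φ ((TopCat.of X).toSSetObjEquiv _ x) • 𝟙 RR

theorem ch_coch (φ : C(Sx n, X) → ℝ) (σ : C(Sx n, X)) : ch σ ≫ coch φ = φ σ • 𝟙 RR :=
  (Sigma.ι_desc _ _).trans (by rw [Equiv.apply_symm_apply])

theorem ch_d2 (σ : C(Sx 2, X)) : ch σ ≫ (CC.obj (TopCat.of X)).d 2 1 =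
    ch (σ.comp (face 0)) - ch (σ.comp (face 1)) + ch (σ.comp (face 2)) := by
  rw [ch_d, Fin.sum_univ_three]
  simp [sub_eq_add_neg]

theorem ch_d3 (σ : C(Sx 3, X)) : ch σ ≫ (CC.obj (TopCat.of X)).d 3 2 =
    ch (σ.comp (face 0)) - ch (σ.comp (face 1)) + ch (σ.comp (face 2)) - ch (σ.comp (face 3)) := by
  rw [ch_d, Fin.sum_univ_four]
  simp [sub_eq_add_neg, show ((-1 : ℤ) ^ 3) = -1 by norm_num]

/-- linear functionals on a simplex -/
noncomputable def lin (g : Fin (n + 1) → ℝ) (x : Sx n) : ℝ := ∑ k, g k * x k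

@[fun_prop] theorem lin_cont (g : Fin (n + 1) → ℝ) : Continuous (lin g) :=
  continuous_finset_sum _ fun k _ =>
    continuous_const.mul ((continuous_apply k).comp continuous_subtype_val)

theorem lin_face (g : Fin (n + 2) → ℝ) (i : Fin (n + 2)) (x : Sx n) :
    lin g (face i x) = lin (g ∘ i.succAbove) x := by
  simp only [lin, face, ContinuousMap.coe_mk, stdSimplex.map_coe,
    FunOnFinite.linearMap_apply_apply, Finset.mul_sum]
  rw [← Finset.sum_fiberwise Finset.univ i.succAbove]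
  refine Finset.sum_congr rfl fun k _ => Finset.sum_congr rfl fun j hj => ?_
  rw [← (Finset.mem_filter.mp hj).2]
  rfl

theorem lin_vertex (g : Fin (n + 1) → ℝ) (k : Fin (n + 1)) : lin g (vx k) = g k := by
  simp [lin, vx, Pi.single_apply]

theorem face_vertex (i : Fin (n + 2)) (k : Fin (n + 1)) :
    face i (vx k) = vx (i.succAbove k) := stdSimplex.map_vertex _ _

instance : ContractibleSpace (Sx n) :=
  (convex_stdSimplex ℝ _).contractibleSpace ⟨_, single_mem_stdSimplex ℝ 0⟩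

instance : LocallyPathConnectedSpace (Sx n) := (convex_stdSimplex ℝ _).locallyPathConnectedSpace

theorem exists_log (h : C(Sx n, ℂ)) (hh : ∀ x, h x ≠ 0) :
    ∃ L : C(Sx n, ℂ), ∀ x, Complex.exp (L x) = h x := by
  obtain ⟨L, ⟨-, hL⟩, -⟩ := Complex.isCoveringMap_exp.existsUnique_continuousMap_lifts
    ⟨fun x => ⟨h x, hh x⟩, by fun_prop⟩ (vx 0) (Complex.log (h (vx 0)))
    (Subtype.ext (Complex.exp_log (hh _)))
  exact ⟨L, fun x => congrArg Subtype.val (congrFun hL x)⟩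

open Classical in
/-- the variation of the argument along an edge -/
noncomputable def var (h : Sx 1 → ℂ) : ℝ :=
  if H : ∃ L : C(Sx 1, ℂ), ∀ x, Complex.exp (L x) = h x then
    (H.choose (vx 1) - H.choose (vx 0)).im else 0

theorem var_eq {h : Sx 1 → ℂ} (L : C(Sx 1, ℂ)) (hL : ∀ x, Complex.exp (L x) = h x) :
    var h = (L (vx 1) - L (vx 0)).im := by
  have H : ∃ L : C(Sx 1, ℂ), ∀ x, Complex.exp (L x) = h x := ⟨L, hL⟩
  rw [var, dif_pos H]
  have h1 := H.choose_spec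
  generalize H.choose = L' at h1
  have := Complex.isCoveringMap_exp.eq_of_comp_eq (g₁ := L)
    (g₂ := fun x => L' x + (L (vx 0) - L' (vx 0))) (by fun_prop) (by fun_prop)
    (funext fun x => Subtype.ext (by
      have : h (vx 0) ≠ 0 := hL _ ▸ Complex.exp_ne_zero _
      simp [Complex.exp_add, Complex.exp_sub, hL, h1, this])) (vx 0) (by simp)
  rw [congrFun this (vx 1)]
  congr 1
  ring

end Vale.Agent.P103
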