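import Mathlib

namespace Vale.Agent.P103

/-- The largest cardinality of a set whose distinct points satisfy `d_n(x,y) > ε`, where
`d_n(x,y)` is the maximum of `dist (f^[j] x) (f^[j] y)` over `j < n`. -/
noncomputable def sepNum {M : Type} [MetricSpace M] (f : M → M) (n : ℕ) (ε : ℝ) : ℕ∞ :=
  ⨆ (S : Set M) (_ : S.Pairwise fun x y => ∃ j < n, ε < dist (f^[j] x) (f^[j] y)), S.encard

/-- Topological entropy: the limit as `ε` decreases to `0` (a supremum, by monotonicity) of
`limsup (1/n) log s_f(n,ε)`. -/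
noncomputable def htop {M : Type} [MetricSpace M] (f : M → M) : EReal :=
  ⨆ (ε : ℝ) (_ : 0 < ε),
    Filter.limsup (fun n : ℕ => ENNReal.log (sepNum f n ε : ENNReal) / (n : EReal)) Filter.atTop

/-- The unit sphere `S^n` of Euclidean space `ℝ^(n+1)`. -/
abbrev Sph (n : ℕ) : Type := Metric.sphere (0 : EuclideanSpace ℝ (Fin (n + 1))) 1

/-- Singular homology in degree `k` with real coefficients, as a functor. -/
noncomputable abbrev Hom (k : ℕ) : CategoryTheory.Functor TopCat.{0} (ModuleCat.{0} ℝ) :=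
  (AlgebraicTopology.singularHomologyFunctor (ModuleCat.{0} ℝ) k).obj (ModuleCat.of ℝ ℝ)

end Vale.Agent.P103
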