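import Vale.Agent.P103.Defs

/-! Bowen's coding argument: if orbits visit the complement of a set with trivial dynamics a
bounded number of times, the entropy vanishes. -/

namespace Vale.Agent.P103

open Filter Function Set

variable {M : Type} [MetricSpace M] {f : M → M}

/-- the orbit of `y` visits `V` at most `r` times -/
def Vis (f : M → M) (V : Set M) (r : ℕ) (y : M) : Prop :=
  ∀ s : Finset ℕ, (∀ n ∈ s, f^[n] y ∈ V) → s.card ≤ r

def Sep (f : M → M) (n : ℕ) (ε : ℝ) (S : Set M) : Prop :=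
  S.Pairwise fun x y => ∃ j < n, ε < dist (f^[j] x) (f^[j] y)

theorem Vis.iterate {V : Set M} {r : ℕ} {y : M} (h : Vis f V r y) (m : ℕ) :
    Vis f V r (f^[m] y) := by
  intro s hs
  have := h (s.map (addRightEmbedding m)) (by
    intro n hn
    obtain ⟨k, hk, rfl⟩ := Finset.mem_map.mp hn
    simpa [iterate_add_apply] using hs k hk)
  simpa using this

theorem Vis.succ {V : Set M} {r : ℕ} {y : M} (h : Vis f V (r + 1) y) (hy : y ∈ V) :
    Vis f V r (f^[1] y) := by
  intro s hs
  have := h (Finset.cons 0 (s.map (addRightEmbedding 1)) (by simp)) (by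
    intro n hn
    rcases Finset.mem_cons.mp hn with rfl | hn
    · exact hy
    · obtain ⟨k, hk, rfl⟩ := Finset.mem_map.mp hn
      simpa [iterate_add_apply] using hs k hk)
  simpa using this

theorem sep_shift [DecidableEq M] {n m : ℕ} {ε : ℝ} (hε : 0 ≤ ε) {S : Finset M} (h : Sep f n ε S)
    (hc : ∀ x ∈ S, ∀ y ∈ S, ∀ j < m, dist (f^[j] x) (f^[j] y) ≤ ε) :
    (S.image f^[m]).card = S.card ∧ Sep f (n - m) ε (S.image f^[m]) := by
  have key : ∀ x ∈ S, ∀ y ∈ S, x ≠ y →
      ∃ j < n - m, ε < dist (f^[j] (f^[m] x)) (f^[j] (f^[m] y)) := by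
    intro x hx y hy hxy
    obtain ⟨j, hj, e⟩ := h hx hy hxy
    have : m ≤ j := not_lt.mp fun h' => (hc x hx y hy j h').not_gt e
    refine ⟨j - m, by omega, ?_⟩
    rwa [← iterate_add_apply, ← iterate_add_apply, Nat.sub_add_cancel this]
  refine ⟨Finset.card_image_of_injOn fun x hx y hy e => ?_, ?_⟩
  · by_contra hxy
    obtain ⟨j, -, h'⟩ := key x hx y hy hxy
    rw [e, dist_self] at h'
    exact h'.not_ge hε
  · intro a ha b hb hab
    obtain ⟨x, hx, rfl⟩ := Finset.mem_image.mp ha
    obtain ⟨y, hy, rfl⟩ := Finset.mem_image.mp hb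
    exact key x hx y hy fun e => hab (by rw [e])

theorem card_le_one_of_sep {ε : ℝ} {S : Finset M} (h : Sep f 0 ε S) : S.card ≤ 1 :=
  Finset.card_le_one.mpr fun a ha b hb => by
    by_contra hab
    obtain ⟨j, hj, -⟩ := h ha hb hab
    omega

theorem coding {ε lam : ℝ} (hε : 0 < ε) (hl : 1 ≤ lam) {m : ℕ} (hm : 1 ≤ m) (E N : Finset M)
    (hE : 2 * (E.card : ℝ) ≤ lam ^ m) (hN : ∀ y, ∃ c ∈ N, dist y c < ε) (r n : ℕ) (S : Finset M)
    (hS : Sep f n (2 * ε) S)
    (hv : ∀ y ∈ S, Vis f {y | ¬ ∃ e ∈ E, ∀ j < m, dist (f^[j] y) (f^[j] e) < ε} r y) :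
    (S.card : ℝ) ≤ (2 * N.card + 1) ^ r * lam ^ (n + m) := by
  classical
  set O : Set M := {y | ¬ ∃ e ∈ E, ∀ j < m, dist (f^[j] y) (f^[j] e) < ε} with hO
  induction n using Nat.strong_induction_on generalizing r S with
  | _ n ih =>
  have hC : (1 : ℝ) ≤ (2 * N.card + 1) ^ r := one_le_pow₀ (by simp)
  rcases Nat.eq_zero_or_pos n with rfl | hn
  · have : (S.card : ℝ) ≤ 1 := by exact_mod_cast card_le_one_of_sep hS
    exact this.trans (one_le_mul_of_one_le_of_one_le hC (one_le_pow₀ hl))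
  have h1 : ∀ e ∈ E, ((S.filter fun y => ∀ j < m, dist (f^[j] y) (f^[j] e) < ε).card : ℝ) ≤
      (2 * N.card + 1) ^ r * lam ^ n := by
    intro e _
    obtain ⟨a, b⟩ := sep_shift (m := m) (by positivity)
      (hS.mono (Finset.coe_subset.mpr (Finset.filter_subset
        (fun y => ∀ j < m, dist (f^[j] y) (f^[j] e) < ε) S))) (fun x hx y hy j hj => by
        have := (Finset.mem_filter.mp hx).2 j hj
        have := (Finset.mem_filter.mp hy).2 j hj
        have := dist_triangle_right (f^[j] x) (f^[j] y) (f^[j] e)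
        linarith)
    rw [← a]
    rcases le_total m n with hmn | hmn
    · have := ih (n - m) (by omega) r _ b (fun y hy => by
        obtain ⟨x, hx, rfl⟩ := Finset.mem_image.mp hy
        exact (hv x (Finset.mem_filter.mp hx).1).iterate m)
      rwa [Nat.sub_add_cancel hmn] at this
    · rw [Nat.sub_eq_zero_of_le hmn] at b
      exact (Nat.cast_le.mpr (card_le_one_of_sep b)).trans
        (by simpa using one_le_mul_of_one_le_of_one_le hC (one_le_pow₀ hl))
  have h2 : ∀ c ∈ N, ((S.filter fun y => y ∈ O ∧ dist y c < ε).card : ℝ) ≤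
      (2 * N.card + 1) ^ r / (2 * N.card + 1) * lam ^ (n + m) := by
    intro c _
    rcases r with _ | r
    · rw [Finset.filter_eq_empty_iff.mpr fun y hy h => by simpa using hv y hy {0} (by simpa using h.1)]
      simp only [Finset.card_empty, Nat.cast_zero]
      positivity
    obtain ⟨a, b⟩ := sep_shift (m := 1) (by positivity)
      (hS.mono (Finset.coe_subset.mpr (Finset.filter_subset
        (fun y => y ∈ O ∧ dist y c < ε) S))) (fun x hx y hy j hj => by
        obtain rfl : j = 0 := by omega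
        have := (Finset.mem_filter.mp hx).2.2
        have := (Finset.mem_filter.mp hy).2.2
        have := dist_triangle_right x y c
        simp only [iterate_zero, id]
        linarith)
    rw [← a, pow_succ, mul_div_cancel_right₀ _ (by positivity)]
    refine (ih (n - 1) (by omega) r _ b (fun y hy => ?_)).trans ?_
    · obtain ⟨x, hx, rfl⟩ := Finset.mem_image.mp hy
      exact (hv x (Finset.mem_filter.mp hx).1).succ (Finset.mem_filter.mp hx).2.1
    · gcongr
      omega
  have h3 : S ⊆ (E.biUnion fun e => S.filter fun y => ∀ j < m, dist (f^[j] y) (f^[j] e) < ε) ∪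
      N.biUnion fun c => S.filter fun y => y ∈ O ∧ dist y c < ε := by
    intro y hy
    by_cases h : y ∈ O
    · obtain ⟨c, hc, h'⟩ := hN y
      exact Finset.mem_union_right _ (Finset.mem_biUnion.mpr ⟨c, hc, by simp [hy, h, h']⟩)
    · obtain ⟨e, he, h'⟩ := not_not.mp h
      exact Finset.mem_union_left _
        (Finset.mem_biUnion.mpr ⟨e, he, Finset.mem_filter.mpr ⟨hy, h'⟩⟩)
  have h4 := (Finset.card_le_card h3).trans ((Finset.card_union_le _ _).trans
    (add_le_add Finset.card_biUnion_le Finset.card_biUnion_le))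
  have h5 := (Nat.cast_le (α := ℝ)).mpr h4
  push_cast at h5
  have h6 := Finset.sum_le_card_nsmul _ _ _ h1
  have h7 := Finset.sum_le_card_nsmul _ _ _ h2
  rw [nsmul_eq_mul] at h6 h7
  have h8 : (N.card : ℝ) * ((2 * N.card + 1) ^ r / (2 * N.card + 1) * lam ^ (n + m)) ≤
      (2 * N.card + 1) ^ r * lam ^ (n + m) / 2 := by
    rw [div_mul_eq_mul_div, ← mul_div_assoc, div_le_div_iff₀ (by positivity) (by positivity)]
    have : 0 ≤ (2 * (N.card : ℝ) + 1) ^ r * lam ^ (n + m) := by positivity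
    nlinarith
  have h9 : (E.card : ℝ) * ((2 * N.card + 1) ^ r * lam ^ n) ≤
      (2 * N.card + 1) ^ r * lam ^ (n + m) / 2 := by
    have : 0 ≤ (2 * (N.card : ℝ) + 1) ^ r * lam ^ n := by positivity
    rw [pow_add]
    nlinarith
  linarith

theorem vis_compact {K : Set M} (hK : IsCompact K)
    (h : ∀ x ∈ K, ∃ V ∈ nhds x, ∃ r, ∀ y, Vis f V r y) : ∃ r, ∀ y, Vis f K r y := by
  classical
  refine hK.induction_on (p := fun K => ∃ r, ∀ y, Vis f K r y)
    ⟨0, fun y s hs => by
      rw [Finset.eq_empty_of_forall_notMem fun n hn => hs n hn]; rfl⟩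
    (fun s t hst ⟨r, hr⟩ => ⟨r, fun y u hu => hr y u fun n hn => hst (hu n hn)⟩) ?_
    (fun x hx => by
      obtain ⟨V, hV, r, hr⟩ := h x hx
      exact ⟨V, mem_nhdsWithin_of_mem_nhds hV, r, hr⟩)
  rintro s t ⟨r, hr⟩ ⟨r', hr'⟩
  refine ⟨r + r', fun y u hu => ?_⟩
  rw [← Finset.card_filter_add_card_filter_not (p := fun n => f^[n] y ∈ s)]
  exact add_le_add (hr y _ fun n hn => (Finset.mem_filter.mp hn).2)
    (hr' y _ fun n hn => (hu n (Finset.mem_filter.mp hn).1).resolve_left
      (Finset.mem_filter.mp hn).2)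

/-- finitely many orbits shadow all the orbits starting in `Y` -/
def Shad (f : M → M) (Y : Set M) : Prop :=
  ∀ ε > 0, ∃ E : Finset M, ∀ y ∈ Y, ∃ e ∈ E, ∀ j, dist (f^[j] y) (f^[j] e) < ε

theorem Shad.union {Y Y' : Set M} (h : Shad f Y) (h' : Shad f Y') : Shad f (Y ∪ Y') := by
  classical
  intro ε hε
  obtain ⟨E, hE⟩ := h ε hε
  obtain ⟨E', hE'⟩ := h' ε hε
  refine ⟨E ∪ E', ?_⟩
  rintro y (hy | hy)
  · obtain ⟨e, he, h⟩ := hE y hy
    exact ⟨e, Finset.mem_union_left _ he, h⟩
  · obtain ⟨e, he, h⟩ := hE' y hy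
    exact ⟨e, Finset.mem_union_right _ he, h⟩

theorem shad_of_le [CompactSpace M] {Y : Set M} (hY : MapsTo f Y Y)
    (h : ∀ a ∈ Y, ∀ b ∈ Y, dist (f a) (f b) ≤ dist a b) : Shad f Y := by
  intro ε hε
  obtain ⟨t, ht, hf, hc⟩ := Metric.finite_approx_of_totallyBounded
    (isCompact_univ.totallyBounded.subset (subset_univ Y)) ε hε
  refine ⟨hf.toFinset, fun y hy => ?_⟩
  obtain ⟨e, he, h'⟩ := mem_iUnion₂.mp (hc hy)
  refine ⟨e, hf.mem_toFinset.mpr he, fun j => lt_of_le_of_lt ?_ h'⟩
  induction j with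
  | zero => rfl
  | succ j ih =>
    rw [iterate_succ_apply', iterate_succ_apply']
    exact (h _ (hY.iterate j hy) _ (hY.iterate j (ht he))).trans ih

theorem htop_eq_zero [CompactSpace M] [Nonempty M] (hf : Continuous f) {Y : Set M}
    (hY : Shad f Y) (h : ∀ x ∉ Y, ∃ V ∈ nhds x, ∃ r, ∀ y, Vis f V r y) : htop f = 0 := by
  have key : ∀ ε > 0, ∀ δ > (0 : ℝ), ∃ C : ℝ, ∀ n : ℕ,
      ENNReal.log (sepNum f n ε : ENNReal) ≤ (C + δ * n : ℝ) := by
    intro ε hε δ hδ
    obtain ⟨E, hE⟩ := hY (ε / 2) (by positivity)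
    obtain ⟨N, hN, hN'⟩ := Metric.totallyBounded_iff.mp
      (isCompact_univ (X := M)).totallyBounded (ε / 2) (by positivity)
    obtain ⟨m, hm, hm'⟩ := (((tendsto_pow_atTop_atTop_of_one_lt
      (Real.one_lt_exp_iff.mpr hδ)).eventually_ge_atTop (2 * E.card)).and
        (eventually_ge_atTop 1)).exists
    obtain ⟨r, hr⟩ := vis_compact (f := f)
      (K := {y | ¬ ∃ e ∈ E, ∀ j < m, dist (f^[j] y) (f^[j] e) < ε / 2})
      (IsClosed.isCompact (IsOpen.isClosed_compl
        (s := {y | ∃ e ∈ E, ∀ j < m, dist (f^[j] y) (f^[j] e) < ε / 2}) (by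
        simp only [setOf_exists, setOf_and, setOf_forall]
        refine isOpen_iUnion fun e => IsOpen.inter (by simp) ?_
        exact (finite_lt_nat m).isOpen_biInter fun j _ =>
          isOpen_lt ((hf.iterate j).dist continuous_const) continuous_const)))
      (fun x hx => h x fun hx' => hx (by
        obtain ⟨e, he, h'⟩ := hE x hx'
        exact ⟨e, he, fun j _ => h' j⟩))
    refine ⟨Real.log ((2 * hN.toFinset.card + 1) ^ r) + δ * m, fun n => ?_⟩
    have hb : ∀ S : Finset M, Sep f n ε S →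
        (S.card : ℝ) ≤ (2 * hN.toFinset.card + 1) ^ r * Real.exp δ ^ (n + m) := fun S hS =>
      coding (half_pos hε) (Real.one_le_exp hδ.le) hm' E hN.toFinset hm
        (fun y => by simpa using hN' (mem_univ y)) r n S (by rwa [mul_div_cancel₀ _ two_ne_zero])
        fun y _ => hr y
    have : (sepNum f n ε : ENNReal) ≤
        ENNReal.ofReal ((2 * hN.toFinset.card + 1) ^ r * Real.exp δ ^ (n + m)) := by
      refine le_trans (ENat.toENNReal_le.mpr (show _ ≤ ((⌊(2 * (hN.toFinset.card : ℝ) + 1) ^ r *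
        Real.exp δ ^ (n + m)⌋₊ : ℕ) : ℕ∞) from iSup₂_le fun S hS => ?_)) ?_
      · by_contra hlt
        obtain ⟨T, hT, hT'⟩ := exists_subset_encard_eq (Order.add_one_le_of_lt (not_le.mp hlt))
        lift T to Finset M using finite_of_encard_eq_coe (hT'.trans (Nat.cast_add_one _).symm)
        have := Nat.le_floor (hb T (hS.mono hT))
        rw [encard_coe_eq_coe_finsetCard, ← Nat.cast_add_one, Nat.cast_inj] at hT'
        omega
      · rw [ENat.toENNReal_coe, ← ENNReal.ofReal_natCast]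
        exact ENNReal.ofReal_le_ofReal (Nat.floor_le (by positivity))
    refine (ENNReal.log_monotone this).trans (le_of_eq ?_)
    rw [ENNReal.log_ofReal_of_pos (by positivity), Real.log_mul (by positivity) (by positivity),
      Real.log_pow, Real.log_pow, Real.log_exp]
    congr 1
    push_cast
    ring
  have k2 : ∀ ε > 0, limsup (fun n : ℕ => ENNReal.log (sepNum f n ε : ENNReal) / (n : EReal))
      atTop = 0 := by
    intro ε hε
    refine le_antisymm (EReal.le_of_forall_lt_iff_le.mp fun δ hδ => ?_)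
      (le_limsup_of_frequently_le' (Frequently.of_forall fun n => ?_))
    · have hδ' : 0 < δ := EReal.coe_pos.mp hδ
      obtain ⟨C, hC⟩ := key ε hε (δ / 2) (half_pos hδ')
      refine limsup_le_of_le (h := ?_)
      filter_upwards [eventually_gt_atTop 0, tendsto_natCast_atTop_atTop.eventually_ge_atTop
        (C / (δ / 2))] with n hn hn'
      rw [EReal.div_le_iff_le_mul (by exact_mod_cast hn) (EReal.natCast_ne_top n)]
      refine (hC n).trans ?_
      rw [div_le_iff₀ (half_pos hδ')] at hn'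
      rw [← EReal.coe_natCast, ← EReal.coe_mul, EReal.coe_le_coe_iff]
      nlinarith
    · refine EReal.div_nonneg (ENNReal.zero_le_log_iff.mpr ?_) (by exact_mod_cast n.zero_le)
      refine le_trans (by simp) (ENat.toENNReal_le.mpr (le_iSup₂_of_le {Classical.arbitrary M}
        (pairwise_singleton _ _) (encard_singleton _).ge))
  refine le_antisymm (iSup₂_le fun ε hε => (k2 ε hε).le) ?_
  exact le_iSup₂_of_le 1 one_pos (k2 1 one_pos).ge

end Vale.Agent.P103
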