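import Vale.Agent.P103.Euler

/-! A nonzero class of the second homology of the two-sphere doubled by the suspension of the
squaring map. -/

namespace Vale.Agent.P103

open CategoryTheory Complex ComplexConjugate Real

theorem cont_of_bound {X : Type} [NormedAddCommGroup X] {φ : X → ℂ} {y : X → ℝ}
    (hy : Continuous y) (h : ∀ x, ‖φ x‖ ≤ |y x|) (h' : ∀ x, y x ≠ 0 → ContinuousAt φ x) :
    Continuous φ := by
  refine continuous_iff_continuousAt.mpr fun x => ?_
  by_cases e : y x = 0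
  · have h0 : φ x = 0 := norm_le_zero_iff.mp (by simpa [e] using h x)
    rw [ContinuousAt, h0]
    exact squeeze_zero_norm h (by simpa [e] using hy.abs.tendsto x)
  · exact h' x e

noncomputable def pol (q : ℝ × ℝ) : ℂ := (|q.1| : ℝ) * exp ((q.2 / q.1 : ℝ) * I)

theorem norm_pol (q : ℝ × ℝ) : ‖pol q‖ = |q.1| := by
  rw [pol, norm_mul, norm_exp_ofReal_mul_I, mul_one, norm_real, Real.norm_eq_abs, abs_abs]

theorem pol_cont : Continuous pol :=
  cont_of_bound continuous_fst (fun x => (norm_pol x).le) fun x hx => by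
    unfold pol
    fun_prop (disch := exact hx)

noncomputable def sq1 (ζ : ℂ) : ℂ := ζ ^ 2 / ‖ζ‖

theorem norm_sq1 (ζ : ℂ) : ‖sq1 ζ‖ = ‖ζ‖ := by
  rw [sq1, norm_div, norm_pow, norm_real, norm_norm, sq, mul_self_div_self]

@[fun_prop] theorem sq1_cont : Continuous sq1 :=
  cont_of_bound continuous_norm (fun x => by simp [norm_sq1]) fun x hx => by
    unfold sq1
    fun_prop (disch := exact_mod_cast hx)

/-- the suspension of the squaring map of the circle -/
noncomputable def sqS : C(Sph 2, Sph 2) :=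
  ⟨fun p => ⟨mk3 (sq1 (ze p.1)) (p.1 2), by
    rw [mem_sphere_zero_iff_norm, ← sq_eq_sq₀ (norm_nonneg _) zero_le_one, norm3, ze_mk3, norm_sq1,
      mk3_two, sph_sq, one_pow]⟩, by fun_prop⟩

variable {n : ℕ}

noncomputable def cone (s : ℝ) (hs : s ≠ 0) (h a : Fin (n + 1) → ℝ) : C(Sx n, Sph 2) :=
  ⟨fun x => toS (mk3 (pol (1 - lin h x, lin a x)) (s * lin h x)) (mk3_ne fun e => by
    have := norm_pol (1 - lin h x, lin a x)
    rw [e, norm_zero, eq_comm, abs_eq_zero, sub_eq_zero] at this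
    rwa [← this, mul_one]),
    toS_cont (mk3_cont (pol_cont.comp (by fun_prop)) (by fun_prop)) _⟩

theorem cone_face (s : ℝ) (hs : s ≠ 0) (h a : Fin (n + 2) → ℝ) (i : Fin (n + 2)) :
    (cone s hs h a).comp (face i) = cone s hs (h ∘ i.succAbove) (a ∘ i.succAbove) := by
  ext1 x
  simp only [cone, ContinuousMap.comp_apply, ContinuousMap.coe_mk, lin_face]

theorem lin_zero (x : Sx n) : lin 0 x = 0 := by simp [lin]

theorem cone_zero (s s' : ℝ) (hs : s ≠ 0) (hs' : s' ≠ 0) (a : Fin (n + 1) → ℝ) :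
    cone s hs 0 a = cone s' hs' 0 a := by
  ext1 x
  simp only [cone, ContinuousMap.coe_mk, lin_zero, mul_zero]

theorem cone_congr (s : ℝ) (hs : s ≠ 0) (h : Fin (n + 1) → ℝ) {a a' : Fin (n + 1) → ℝ} (k : ℕ)
    (e : ∀ i, a' i = a i + k * (2 * π) * (1 - h i)) : cone s hs h a' = cone s hs h a := by
  ext1 x
  have h1 : lin a' x = lin a x + k * (2 * π) * (1 - lin h x) := by
    have := stdSimplex.sum_eq_one x
    simp only [lin, e, add_mul, Finset.sum_add_distrib, mul_assoc, ← Finset.mul_sum, sub_mul,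
      Finset.sum_sub_distrib, one_mul, this]
  have h2 : pol (1 - lin h x, lin a' x) = pol (1 - lin h x, lin a x) := by
    by_cases h0 : 1 - lin h x = 0
    · simp [pol, h0]
    · simp only [pol, h1, add_div, mul_div_cancel_right₀ _ h0]
      push_cast
      rw [add_mul, Complex.exp_add, mul_assoc (k : ℂ), exp_nat_mul_two_pi_mul_I, mul_one]
  simp only [cone, ContinuousMap.coe_mk, h2]

theorem sqS_cone (s : ℝ) (hs : s ≠ 0) (h a : Fin (n + 1) → ℝ) :
    sqS.comp (cone s hs h a) = cone s hs h fun i => 2 * a i := by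
  ext1 x
  have h1 : lin (fun i => 2 * a i) x = 2 * lin a x := by simp [lin, Finset.mul_sum, mul_assoc]
  have h2 : ∀ b, ‖mk3 (pol (1 - lin h x, b)) (s * lin h x)‖ =
      ‖mk3 (pol (1 - lin h x, 0)) (s * lin h x)‖ := fun b => by
    rw [← sq_eq_sq₀ (norm_nonneg _) (norm_nonneg _), norm3, norm3, ze_mk3, ze_mk3, norm_pol,
      norm_pol, mk3_two, mk3_two]
  refine Subtype.ext (ext3 ?_ ?_)
  · simp only [sqS, cone, toS, ContinuousMap.comp_apply, ContinuousMap.coe_mk, ze_mk3, ze_smul, h2,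
      h1, sq1, norm_mul, norm_pol, norm_real, norm_inv, norm_norm]
    generalize ‖mk3 _ _‖ = r
    simp only [pol, mul_pow, ← Complex.exp_nat_mul]
    generalize |1 - lin h x| = y
    push_cast
    rw [show ((2 : ℂ) * (lin a x / (1 - lin h x) * I)) = 2 * lin a x / (1 - lin h x) * I by ring,
      ← mul_assoc, ← mul_pow, mul_div_right_comm, sq, mul_self_div_self, mul_assoc]
  · simp only [sqS, cone, toS, ContinuousMap.comp_apply, ContinuousMap.coe_mk, mk3_two,
      PiLp.smul_apply, h2]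

noncomputable def cyc (a b : ℝ) : RR ⟶ (CC.obj (TopCat.of (Sph 2))).X 2 :=
  ch (cone (n := 2) 1 one_ne_zero ![1, 0, 0] ![0, a, b]) -
    ch (cone (n := 2) (-1) (by norm_num) ![1, 0, 0] ![0, a, b])

theorem faces3 (s : ℝ) (hs : s ≠ 0) (a b : ℝ) :
    (cone (n := 2) s hs ![1, 0, 0] ![0, a, b]).comp (face 0) = cone (n := 1) s hs 0 ![a, b] ∧
    (cone (n := 2) s hs ![1, 0, 0] ![0, a, b]).comp (face 1) = cone (n := 1) s hs ![1, 0] ![0, b] ∧
    (cone (n := 2) s hs ![1, 0, 0] ![0, a, b]).comp (face 2) =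
      cone (n := 1) s hs ![1, 0] ![0, a] := by
  refine ⟨?_, ?_, ?_⟩ <;> rw [cone_face] <;> congr 1 <;> ext i <;> fin_cases i <;> rfl

theorem faces4 (s : ℝ) (hs : s ≠ 0) (a b c : ℝ) :
    (cone (n := 3) s hs ![1, 0, 0, 0] ![0, a, b, c]).comp (face 0) =
      cone (n := 2) s hs 0 ![a, b, c] ∧
    (cone (n := 3) s hs ![1, 0, 0, 0] ![0, a, b, c]).comp (face 1) =
      cone (n := 2) s hs ![1, 0, 0] ![0, b, c] ∧
    (cone (n := 3) s hs ![1, 0, 0, 0] ![0, a, b, c]).comp (face 2) =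
      cone (n := 2) s hs ![1, 0, 0] ![0, a, c] ∧
    (cone (n := 3) s hs ![1, 0, 0, 0] ![0, a, b, c]).comp (face 3) =
      cone (n := 2) s hs ![1, 0, 0] ![0, a, b] := by
  refine ⟨?_, ?_, ?_, ?_⟩ <;> rw [cone_face] <;> congr 1 <;> ext i <;> fin_cases i <;> rfl

theorem cone_side (s : ℝ) (hs : s ≠ 0) :
    cone (n := 1) s hs ![1, 0] ![0, 2 * π] = cone (n := 1) s hs ![1, 0] ![0, 0] :=
  cone_congr s hs _ 1 fun i => by fin_cases i <;> simp

theorem lin_nonneg (x : Sx 2) : 0 ≤ lin ![1, 0, 0] x := by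
  simp [lin, Fin.sum_univ_three]

theorem cyc_euler : cyc 0 (2 * π) ≫ euler ≠ 0 := by
  have hz : ∀ s hs x, ((cone (n := 2) s hs ![1, 0, 0] ![0, 0, 2 * π] x).1 2) =
      ‖mk3 (pol (1 - lin ![1, 0, 0] x, lin ![0, 0, 2 * π] x)) (s * lin ![1, 0, 0] x)‖⁻¹ *
        (s * lin ![1, 0, 0] x) := fun _ _ _ => rfl
  let σ₁ := cone (n := 2) 1 one_ne_zero ![1, 0, 0] ![0, 0, 2 * π]
  let σ₂ := cone (n := 2) (-1) (by norm_num) ![1, 0, 0] ![0, 0, 2 * π]
  let τ₁ : C(Sx 2, PP) := ⟨fun x => ⟨(σ₁ x, pj (σ₁ x).1 (0, 1)), pj_pj _ _, fun e => by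
    have h1 := congrArg (fun v : ℂ × ℂ => v.2.re) e
    have h2 : 0 ≤ (σ₁ x).1 2 := by
      rw [hz]; have := lin_nonneg x; positivity
    simp [pj] at h1
    linarith⟩, by have := σ₁.continuous; unfold pj; fun_prop⟩
  let τ₂ : C(Sx 2, PP) := ⟨fun x => ⟨(σ₂ x, pj (σ₂ x).1 (1, 0)), pj_pj _ _, fun e => by
    have h1 := congrArg (fun v : ℂ × ℂ => v.1.re) e
    have h2 : 0 ≤ -(σ₂ x).1 2 := by
      rw [hz, neg_one_mul, mul_neg, neg_neg]; have := lin_nonneg x; positivity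
    simp [pj] at h1
    linarith⟩, by have := σ₂.continuous; unfold pj; fun_prop⟩
  have e1 : σ₁.comp (face 1) = σ₁.comp (face 2) := by
    simp only [σ₁, faces3, cone_side]
  have e2 : σ₂.comp (face 1) = σ₂.comp (face 2) := by
    simp only [σ₂, faces3, cone_side]
  have f1 : τ₁.comp (face 1) = τ₁.comp (face 2) := ContinuousMap.ext fun x => Subtype.ext
    (congrArg (fun p : Sph 2 => (p, pj p.1 (0, 1))) (DFunLike.congr_fun e1 x))
  have f2 : τ₂.comp (face 1) = τ₂.comp (face 2) := ContinuousMap.ext fun x => Subtype.ext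
    (congrArg (fun p : Sph 2 => (p, pj p.1 (1, 0))) (DFunLike.congr_fun e2 x))
  have e0 : ∀ s hs x, (cone (n := 2) s hs ![1, 0, 0] ![0, 0, 2 * π] (face 0 x)).1 =
      mk3 (exp (lin ![0, 2 * π] x * I)) 0 := fun s hs x => by
    have h2 : ∀ b : ℝ, pol (1, b) = exp (b * I) := fun b => by simp [pol]
    have h3 : ∀ b : ℝ, ‖mk3 (exp (b * I)) 0‖ = 1 := fun b => by
      rw [← sq_eq_sq₀ (norm_nonneg _) zero_le_one, norm3]; simp
    rw [← ContinuousMap.comp_apply, (faces3 _ _ _ _).1]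
    simp only [cone, toS, ContinuousMap.coe_mk, lin_zero, sub_zero, mul_zero, h2, h3, inv_one,
      one_smul]
  have f0 := cA_eq (τ := τ₁.comp (face 0)) (τ' := τ₂.comp (face 0))
    (ContinuousMap.ext fun x => Subtype.ext ((e0 _ one_ne_zero x).trans (e0 _ (by norm_num) x).symm))
    ⟨fun x => lin ![0, 2 * π] x * I, by fun_prop⟩ fun x => by
      change pj (σ₂ (face 0 x)).1 (1, 0) = exp (lin ![0, 2 * π] x * I) • pj (σ₁ (face 0 x)).1 (0, 1)
      rw [e0, e0]
      have := conj_mul' (exp (lin ![0, 2 * π] x * I))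
      rw [norm_exp_ofReal_mul_I] at this
      ext
      · simp only [pj, ze_mk3, mk3_two, Prod.smul_fst, smul_eq_mul]
        push_cast at this ⊢
        linear_combination (-1 / 2) * this
      · simp [pj, div_eq_mul_inv]
  have g1 : ch σ₁ ≫ euler = _ := ch_euler τ₁
  have g2 : ch σ₂ ≫ euler = _ := ch_euler τ₂
  rw [cyc, Preadditive.sub_comp, g1, g2, ← sub_smul, cE, cE, f0, f1, f2]
  intro h
  have := congrArg (fun g : RR ⟶ RR => g.hom 1) h
  simp [lin_vertex] at this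

theorem exists_class : ∃ x : (Hom 2).obj (TopCat.of (Sph 2)), x ≠ 0 ∧
    ((Hom 2).map (TopCat.ofHom sqS)).hom x = (2 : ℝ) • x := by
  refine eigen (CC.map (TopCat.ofHom sqS)) (cyc 0 (2 * π)) ?_
    (ch (cone (n := 3) 1 one_ne_zero ![1, 0, 0, 0] ![0, 0, 2 * π, 2 * (2 * π)]) -
      ch (cone (n := 3) (-1) (by norm_num) ![1, 0, 0, 0] ![0, 0, 2 * π, 2 * (2 * π)])) ?_ euler
    d_euler cyc_euler
  · simp only [cyc, Preadditive.sub_comp, ch_d2, faces3, cone_side]
    rw [cone_zero 1 (-1) _ (by norm_num)]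
    abel
  · have h1 : ∀ s hs, cone (n := 2) s hs ![1, 0, 0] ![0, 2 * π, 2 * (2 * π)] =
        cone (n := 2) s hs ![1, 0, 0] ![0, 0, 2 * π] := fun s hs =>
      cone_congr s hs _ 1 fun i => by fin_cases i <;> simp [two_mul]
    have h2 : (fun i : Fin (2 + 1) => 2 * ![0, 0, 2 * π] i) = ![0, 0, 2 * (2 * π)] := by
      ext i; fin_cases i <;> simp
    simp only [cyc, Preadditive.sub_comp, ch_d3, faces4, ch_map, sqS_cone, h1, h2]
    rw [cone_zero 1 (-1) _ (by norm_num)]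
    abel

end Vale.Agent.P103
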