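import Vale.Agent.P103.Map
import Vale.Agent.P103.Homology

/-! The map is continuously differentiable and doubles a homology class. -/

namespace Vale.Agent.P103

open Complex ComplexConjugate Real Filter CategoryTheory
open scoped Manifold Topology

variable {a : AA}

theorem On.coef (h : On a) {F : ℝ → ℝ} (hF : ContDiff ℝ 1 F) (h0 : ∀ t, 5 < |t| → F t = 0) :
    ContDiffAt ℝ 1 (fun a => F (tt a)) a := by
  rcases lt_or_ge a.1.re 0 with e | e
  · refine (contDiffAt_const (c := (0 : ℝ))).congr_of_eventuallyEq ?_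
    filter_upwards [(isOpen_lt (continuous_re.comp continuous_fst) continuous_const).mem_nhds e]
      with b hb
    refine h0 _ ?_
    have h1 := not_le.mp (mt abs_arg_le_pi_div_two_iff.mp (not_le.mpr hb))
    have := pi_pos
    rw [tt, abs_mul, abs_of_pos (by positivity), div_mul_eq_mul_div, lt_div_iff₀ this]
    linarith
  · have h1 : a.1 ∈ slitPlane := by
      rw [mem_slitPlane_iff]
      by_contra! e'
      have : a.1 = 0 := Complex.ext (le_antisymm e'.1 e) e'.2
      simpa [this] using h.h1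
    have h2 : ContDiffAt ℝ 1 arg a.1 := (show arg = _ from funext fun x => (log_im x).symm) ▸
      imCLM.contDiff.contDiffAt.comp _ ((analyticAt_clog h1).contDiffAt.restrict_scalars ℝ)
    exact hF.contDiffAt.comp a (contDiffAt_const.mul (h2.comp a contDiffAt_fst))

@[fun_prop] theorem normSq_contDiff : ContDiff ℝ 1 fun z : ℂ => ‖z‖ ^ 2 := contDiff_norm_sq ℂ

@[fun_prop] theorem re_contDiff : ContDiff ℝ 1 re := reCLM.contDiff

@[fun_prop] theorem im_contDiff : ContDiff ℝ 1 im := imCLM.contDiff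

@[fun_prop] theorem conj_contDiff : ContDiff ℝ 1 fun z : ℂ => conj z := conjCLE.contDiff

theorem On.smooth (h : On a) : ContDiffAt ℝ 1 DD a ∧ ContDiffAt ℝ 1 VV a ∧
    ContDiffAt ℝ 1 mu' a ∧ (∀ k, ContDiffAt ℝ 1 (zc' k) a) ∧
    ContDiffAt ℝ 1 (fun a => mu a ^ 2 + push a + (1 - ell (tt a))) a := by
  have e1 : ∀ t : ℝ, 5 < |t| → ell t = 0 := fun t ht => (lt_abs.mp ht).elim
    (fun h => by rw [ell, S0 (x := 2 - t) (by linarith), mul_zero])
    (fun h => by rw [ell, S0 (by linarith), zero_mul])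
  have c1 := h.coef (F := ell) (by unfold ell; fun_prop) e1
  have c2 := h.coef (F := fun t => ell t * t) (by unfold ell; fun_prop)
    fun t ht => by rw [e1 t ht, zero_mul]
  have c3 := h.coef (F := bump) (by unfold bump; fun_prop) fun t ht => (lt_abs.mp ht).elim
    (fun h => by rw [bump, S0 (x := 5 - _) (by linarith), mul_zero])
    (fun h => by rw [bump, S0 (by linarith), zero_mul])
  have c4 := h.coef (F := a0) (by unfold a0; fun_prop) fun t ht => (lt_abs.mp ht).elim
    (fun h => by rw [a0, S0 (x := _ - 9) (by linarith), mul_zero])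
    (fun h => by rw [a0, S0 (by linarith), zero_mul])
  have c5 := h.coef (F := rs) (by unfold rs; fun_prop) fun t ht => (lt_abs.mp ht).elim
    (fun h => by rw [rs, S0 (x := _ - 5) (by linarith), mul_zero])
    (fun h => by rw [rs, S0 (by linarith), zero_mul])
  have c6 := h.coef (F := ka) (by unfold ka; fun_prop) fun t ht => (lt_abs.mp ht).elim
    (fun h => by rw [ka, S0 (x := _ - 12) (by linarith), mul_zero])
    (fun h => by rw [ka, S0 (by linarith), zero_mul])
  have c7 := h.coef (F := be) (by unfold be; fun_prop) fun t ht => (lt_abs.mp ht).elim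
    (fun h => by rw [be, S0 (x := _ - 8) (by linarith), mul_zero])
    (fun h => by rw [be, S0 (by linarith), zero_mul])
  have d1 : ContDiffAt ℝ 1 ZZ a := by unfold ZZ; fun_prop
  have d2 : ContDiffAt ℝ 1 zt a := by unfold zt; fun_prop
  have d3 : ContDiffAt ℝ 1 mu a := by unfold mu; fun_prop
  have d4 : ∀ k, ContDiffAt ℝ 1 (zc k) a := fun k => by
    cases k <;> unfold zc <;> simp only [cond] <;> fun_prop
  have n4 : ∀ k, ContDiffAt ℝ 1 (fun a => ‖zc k a‖ ^ 2) a := fun k => (d4 k).norm_sq ℂ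
  have d5 : ContDiffAt ℝ 1 ee a := by unfold ee; fun_prop
  have d6 : ContDiffAt ℝ 1 push a := by
    have := n4 true
    have := n4 false
    unfold push
    fun_prop
  have d7 : ContDiffAt ℝ 1 (fun a => mu a / (1 - mu a)) a :=
    d3.div (contDiffAt_const.sub d3) (by linarith [h.mu_mem.2])
  have d8 : ContDiffAt ℝ 1 mu' a := by
    have : ContDiff ℝ 1 sat := by unfold sat; fun_prop
    have := this.contDiffAt.comp a (d7.add d6)
    exact d5.mul (((contDiffAt_const.sub c5).mul this).add (c5.mul (by fun_prop)))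
  have d9 : ContDiffAt ℝ 1 cc a := by unfold cc; fun_prop
  have d10 : ContDiffAt ℝ 1 bb a := by
    have := d4 true
    unfold bb
    fun_prop
  have d11 : ∀ k, ContDiffAt ℝ 1 (yy k) a := fun k => by
    have := d4 (!k)
    unfold yy
    fun_prop
  refine ⟨contDiffAt_const.add (d5.mul ((c1.mul (by fun_prop)).sub c2)), ?_, d8, fun k => ?_,
    ((d3.pow 2).add d6).add (contDiffAt_const.sub c1)⟩
  · have := d10.norm_sq ℂ
    unfold VV
    fun_prop
  · have := (d11 k).norm_sq ℂ
    have := d11 k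
    unfold zc'
    fun_prop

abbrev MM : Type := Circle × Sph 2 × Sph 5

def am (y : MM) : AA := (y.1, y.2.1, y.2.2)

theorem on_am (y : MM) : On (am y) :=
  ⟨y.1.norm_coe, norm_eq_of_mem_sphere y.2.1, norm_eq_of_mem_sphere y.2.2⟩

noncomputable def ff (y : MM) : MM :=
  (y.1 * Circle.exp (π / 10 * DD (am y)),
    ⟨(FF (am y)).2.1, mem_sphere_zero_iff_norm.mpr (on_am y).map.h2⟩,
    ⟨(FF (am y)).2.2, mem_sphere_zero_iff_norm.mpr (on_am y).map.h3⟩)

theorem am_ff (y : MM) : am (ff y) = FF (am y) := rfl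

theorem am_smooth : ContMDiff ((𝓡 1).prod ((𝓡 2).prod (𝓡 5))) 𝓘(ℝ, AA) 1 am := by
  have := finrank_real_complex_fact'
  have := Fact.mk (@finrank_euclideanSpace_fin ℝ _ (2 + 1))
  have := Fact.mk (@finrank_euclideanSpace_fin ℝ _ (5 + 1))
  have h : ContMDiff (𝓡 1) 𝓘(ℝ, ℂ) 1 (fun z : Circle => (z : ℂ)) :=
    contMDiff_coe_sphere (E := ℂ)
  exact (h.comp contMDiff_fst).prodMk_space
    ((contMDiff_coe_sphere.comp (contMDiff_fst.comp contMDiff_snd)).prodMk_space
      (contMDiff_coe_sphere.comp (contMDiff_snd.comp contMDiff_snd)))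

theorem ff_smooth : ContMDiff ((𝓡 1).prod ((𝓡 2).prod (𝓡 5))) ((𝓡 1).prod ((𝓡 2).prod (𝓡 5)))
    1 ff := by
  have := Fact.mk (@finrank_euclideanSpace_fin ℝ _ (2 + 1))
  have := Fact.mk (@finrank_euclideanSpace_fin ℝ _ (5 + 1))
  refine (contMDiff_fst.mul (contMDiff_circleExp.comp fun y => ?_)).prodMk
    ((ContMDiff.codRestrict_sphere (fun y => ?_) _).prodMk
      (ContMDiff.codRestrict_sphere (fun y => ?_) _))
  · exact (contDiffAt_const.mul (on_am y).smooth.1).comp_contMDiffAt (am_smooth y)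
  · have h := (on_am y).smooth.2.1
    exact (((h.norm ℝ (on_am y).VV_ne).inv (norm_ne_zero_iff.mpr (on_am y).VV_ne)).smul
      h).comp_contMDiffAt (am_smooth y)
  · obtain ⟨-, -, h1, h2, -⟩ := (on_am y).smooth
    have h3 := h2 false
    have h4 := h2 true
    refine ContDiffAt.comp_contMDiffAt (g := fun a => io (2 * mu' a) fun k => zc' k a)
      (contDiffAt_euclidean.mpr fun i => ?_) (am_smooth y)
    fin_cases i
    · exact contDiffAt_const.mul h1
    · exact re_contDiff.contDiffAt.comp _ h3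
    · exact im_contDiff.contDiffAt.comp _ h3
    · exact re_contDiff.contDiffAt.comp _ h4
    · exact im_contDiff.contDiffAt.comp _ h4
    · exact (((contDiffAt_const.sub ((contDiffAt_const.mul h1).pow 2)).sub (h3.norm_sq ℂ)).sub
        (h4.norm_sq ℂ)).sqrt (by linarith [(on_am y).io_lt])

noncomputable def fC : C(MM, MM) := ⟨ff, ff_smooth.continuous⟩

noncomputable def north : Sph 5 := ⟨io 0 0, mem_sphere_zero_iff_norm.mpr (norm_io (by simp))⟩

noncomputable def jj : C(Sph 2, MM) :=
  ⟨fun p => (Circle.exp (π / 10 * (-4)), p, north), by fun_prop⟩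

theorem jj_vals (p : Sph 2) : DD (am (jj p)) = 1 ∧
    VV (am (jj p)) = mk3 (2 * ze p.1 ^ 2) (4 * p.1 2) := by
  have h0 := pi_pos
  have h1 : tt (am (jj p)) = -4 := by
    change 10 / π * arg (exp ((π / 10 * (-4) : ℝ) * I)) = _
    rw [arg_exp_mul_I, (toIocMod_eq_self _).mpr ⟨by linarith, by linarith⟩]
    field_simp
  have h2 : cc (am (jj p)) = 1 := by
    rw [cc, h1, ka, S1 (by norm_num), S1 (by norm_num)]; ring
  have h3 : bb (am (jj p)) = 0 := by simp [bb, zc, am, jj, north, io]
  refine ⟨by rw [DD, h1, ell, S0 (by norm_num)]; ring, ?_⟩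
  rw [VV, h2, h3]
  congr 1
  · simp [zt, am, jj]
  · simp only [ZZ, am, jj, ContinuousMap.coe_mk, map_zero, mul_zero, zero_re, norm_zero]
    ring

noncomputable def hv (q : unitInterval × Sph 2) : E3 :=
  mk3 ((q.1 : ℝ) * (2 * ze q.2.1 ^ 2) + (1 - q.1 : ℝ) * (4 * sq1 (ze q.2.1))) (4 * q.2.1 2)

theorem hv_ne (q : unitInterval × Sph 2) : hv q ≠ 0 := mk3_ne fun e e' => by
  have h1 : ‖ze q.2.1‖ = 1 := by
    have := sph_sq q.2
    rw [show q.2.1 2 = 0 by linarith] at this
    nlinarith [norm_nonneg (ze q.2.1)]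
  have h2 : ze q.2.1 ≠ 0 := norm_ne_zero_iff.mp (by rw [h1]; exact one_ne_zero)
  rw [sq1, h1, ofReal_one, div_one, ← mul_assoc, ← mul_assoc, ← add_mul] at e
  have h3 : (q.1 : ℝ) * 2 + (1 - q.1 : ℝ) * 4 = 0 := by
    exact_mod_cast (mul_eq_zero.mp e).resolve_right (pow_ne_zero _ h2)
  linarith [q.1.2.2]

noncomputable def homot : (jj.comp sqS).Homotopy (fC.comp jj) where
  toFun q := (Circle.exp (π / 10 * (-4)) * Circle.exp (π / 10 * q.1), toS (hv q) (hv_ne q),
    ⟨io (q.1 * (2 * mu' (am (jj q.2)))) fun k => (q.1 : ℝ) * zc' k (am (jj q.2)),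
      mem_sphere_zero_iff_norm.mpr (norm_io (by
        have h1 := (on_am (jj q.2)).io_lt
        have h2 : (q.1 : ℝ) ^ 2 ≤ 1 := pow_le_one₀ q.1.2.1 q.1.2.2
        rw [norm_mul, norm_mul, mul_pow (q.1 : ℝ), mul_pow ‖_‖, mul_pow ‖_‖, norm_real,
          Real.norm_eq_abs, sq_abs, ← mul_add, ← mul_add]
        exact mul_le_one₀ h2 (by positivity) h1.le))⟩)
  continuous_toFun := by
    have h : ∀ {E : Type} [NormedAddCommGroup E] [NormedSpace ℝ E] {g : AA → E},
        (∀ y, ContDiffAt ℝ 1 g (am y)) → Continuous fun q : unitInterval × Sph 2 => g (am (jj q.2)) :=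
      fun hg => (continuous_iff_continuousAt.mpr fun y => (hg y).continuousAt.comp
        am_smooth.continuous.continuousAt).comp (jj.continuous.comp continuous_snd)
    have h1 := h fun y => (on_am y).smooth.2.2.1
    have h2 := h fun y => (on_am y).smooth.2.2.2.1 false
    have h3 := h fun y => (on_am y).smooth.2.2.2.1 true
    refine Continuous.prodMk (by fun_prop) ((toS_cont (by unfold hv; fun_prop) _).prodMk
      (Continuous.subtype_mk ?_ _))
    have h4 : Continuous fun q : unitInterval × Sph 2 => ((q.1 : ℝ) : ℂ) := by fun_prop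
    replace h2 := h4.mul h2
    replace h3 := h4.mul h3
    replace h1 := (continuous_subtype_val.comp continuous_fst).mul (continuous_const (y := 2).mul h1)
    refine (PiLp.continuous_toLp _ _).comp (continuous_pi fun i => ?_)
    fin_cases i
    exacts [h1, continuous_re.comp h2, continuous_im.comp h2, continuous_re.comp h3,
      continuous_im.comp h3, (((continuous_const.sub (h1.pow 2)).sub (h2.norm.pow 2)).sub
        (h3.norm.pow 2)).sqrt]
  map_zero_left p := by
    refine Prod.ext (by simp [jj]) (Prod.ext (Subtype.ext ?_) (Subtype.ext (by simp [jj, north]; rfl)))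
    have h1 : hv (0, p) = (4 : ℝ) • (sqS p).1 := ext3 (by simp [hv, sqS, ze_smul]) (by simp [hv, sqS])
    simp [toS, h1, jj, norm_smul, smul_smul]
  map_one_left p := by
    refine Prod.ext ?_ (Prod.ext (Subtype.ext ?_) (Subtype.ext ?_))
    · simp only [fC, ff, ContinuousMap.comp_apply, ContinuousMap.coe_mk, (jj_vals p).1]
      rfl
    · simp only [fC, ff, FF, ContinuousMap.comp_apply, ContinuousMap.coe_mk, (jj_vals p).2]
      simp [toS, hv]
    · simp [fC, ff, FF]

theorem exists_eigen : ∃ x : (Hom 2).obj (TopCat.of MM), x ≠ 0 ∧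
    ((Hom 2).map (TopCat.ofHom fC)).hom x = (2 : ℝ) • x := by
  obtain ⟨x, h0, h⟩ := exists_class
  refine ⟨((Hom 2).map (TopCat.ofHom jj)).hom x, fun e => h0 ?_, ?_⟩
  · let q : C(MM, Sph 2) := ⟨fun y => y.2.1, by fun_prop⟩
    have h1 : (Hom 2).map (TopCat.ofHom jj) ≫ (Hom 2).map (TopCat.ofHom q) = 𝟙 _ := by
      rw [← Functor.map_comp, ← CategoryTheory.Functor.map_id]
      rfl
    have h2 := congrArg (fun g => g.hom x) h1
    simpa [e] using h2.symm
  · have h1 : (Hom 2).map (TopCat.ofHom sqS ≫ TopCat.ofHom jj) =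
        (Hom 2).map (TopCat.ofHom jj ≫ TopCat.ofHom fC) :=
      TopCat.Homotopy.congr_homologyMap_singularChainComplexFunctor homot RR 2
    rw [Functor.map_comp, Functor.map_comp] at h1
    have h2 := congrArg (fun g => g.hom x) h1
    simp only [ModuleCat.hom_comp, LinearMap.comp_apply, h, map_smul] at h2
    exact h2.symm

end Vale.Agent.P103
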