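import Vale.Agent.P103.Sync
import Vale.Agent.P103.Smooth
import Vale.Agent.P103.Entropy

/-! Orbits visit the complement of a neighbourhood of two trivial invariant sets a bounded
number of times. -/

namespace Vale.Agent.P103

open Complex Real Function

variable {a : AA}

noncomputable def gain (a : AA) : ℝ := min 1 (mu a ^ 2 + push a + (1 - ell (tt a)))

noncomputable def pot (a : AA) : ℝ :=
  if tt a ≤ -4 then 430 + tt a else if tt a ≤ -1 then tt a + 4
  else if tt a < 1 then 205 + 400 * mu a else 410 + tt a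

theorem On.gain_nonneg (h : On a) : 0 ≤ gain a :=
  le_min zero_le_one (add_nonneg (add_nonneg (sq_nonneg _) h.push_nonneg) (sub_nonneg.mpr (SS1 _ _)))

theorem On.pot_mem (h : On a) : 0 ≤ pot a ∧ pot a ≤ 426 := by
  have := tt_mem a
  have := h.mu_mem
  unfold pot
  split_ifs <;> constructor <;> linarith

theorem On.tt_mid (h : On a) (hb : ¬ Big 4096 a) (h1 : -2 ≤ tt a) (h2 : tt a ≤ 9) : tt (FF a) =
    (1 - ell (tt a)) * (tt a + 1) + ell (tt a) * (3 * S (24 * mu' a - 3)) := by
  have e : tt a + DD a =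
      (1 - ell (tt a)) * (tt a + 1) + ell (tt a) * (3 * S (24 * mu' a - 3)) := by
    rw [DD, ee_one hb]; ring
  have h4 : 0 ≤ ell (tt a) := SS0 _ _
  have h5 : ell (tt a) ≤ 1 := SS1 _ _
  have h6 := Sn (24 * mu' a - 3)
  have h7 := Sl (24 * mu' a - 3)
  rw [h.tt_FF 0 (by rw [e]; push_cast; nlinarith) (by rw [e]; push_cast; nlinarith), e]
  simp

theorem On.pot_step (h : On a) (hb : ¬ Big 4096 a) (hp : ¬ (-5 < tt a ∧ tt a ≤ -4)) :
    pot a + gain a ≤ pot (FF a) := by
  have g1 : gain a ≤ 1 := min_le_left _ _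
  have m1 := h.mu_mem
  have m2 := h.map.mu_mem
  have t0 := tt_mem a
  have h4 : 0 ≤ ell (tt a) := SS0 _ _
  have h5 : ell (tt a) ≤ 1 := SS1 _ _
  have h6 := Sn (24 * mu' a - 3)
  have h7 := Sl (24 * mu' a - 3)
  have e1 : -2 ≤ tt a → mu' a = sat (mu a / (1 - mu a) + push a) := fun e => by
    rw [mu', ee_one hb, rs_zero (by linarith)]; ring
  rcases le_total (tt a) (-2) with e | e
  · have := h.tt_far e
    rw [not_and_or] at hp
    unfold pot
    split_ifs <;> rcases hp with hp | hp <;> linarith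
  rcases le_or_gt (tt a) 9 with e' | e'
  swap
  · have e2 : DD a = 1 := by rw [DD, ell, S0 (x := 2 - _) (by linarith)]; ring
    have := h.tt_FF 1 (by rw [e2]; push_cast; linarith) (by rw [e2]; push_cast; linarith)
    rw [e2] at this
    push_cast at this
    unfold pot
    split_ifs <;> linarith
  have t1 := h.tt_mid hb e e'
  rcases le_or_gt (tt a) (-1) with e2 | e2
  · have : tt a + 1 ≤ tt (FF a) := by nlinarith
    unfold pot
    split_ifs <;> linarith
  rcases lt_or_ge (tt a) 1 with e3 | e3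
  · have e4 := ell_one e2.le e3.le
    rw [e4] at t1
    rcases lt_or_ge (tt (FF a)) 1 with e5 | e5
    · have h8 : mu' a < 1 / 6 := by
        by_contra! h8
        rw [S1 (by linarith)] at t1
        linarith
      have h9 := le_sat (mu a / (1 - mu a) + push a)
      rw [← e1 e, min_le_iff, or_iff_left (by linarith), ← mu_FF] at h9
      have : gain a ≤ _ := min_le_right _ _
      have := h.le_g
      have := h.push_nonneg
      have := sq_nonneg (mu a)
      unfold pot
      split_ifs <;> linarith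
    · unfold pot
      split_ifs <;> linarith
  · have : tt a + 1 ≤ tt (FF a) := by
      rcases le_total (tt a) 2 with e4 | e4
      · have h8 : 1 ≤ push a := by
          rw [push, bump, S1 (x := _ - 1) (by linarith), S1 (x := 5 - _) (by linarith), mul_one]
          exact le_add_of_nonneg_left (mul_nonneg (mul_nonneg h4 (Sn _))
            (add_nonneg (add_nonneg (by linarith [h.Z_mem.1]) (Sn _)) (Sn _)))
        have h9 := le_sat (mu a / (1 - mu a) + push a)
        rw [← e1 e, min_eq_right (by nlinarith [h.le_g])] at h9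
        rw [S1 (by linarith)] at t1
        nlinarith
      · rw [t1, ell, S0 (x := 2 - _) (by linarith)]; linarith
    unfold pot
    split_ifs <;> linarith

theorem On.sum_le (h : On a) (N : ℕ) (hb : ∀ k < N, ¬ Big 4096 (FF^[k] a))
    (hp : ∀ k < N, ¬ (-5 < tt (FF^[k] a) ∧ tt (FF^[k] a) ≤ -4)) :
    ∑ k ∈ Finset.range N, gain (FF^[k] a) ≤ 426 := by
  have : pot a + ∑ k ∈ Finset.range N, gain (FF^[k] a) ≤ pot (FF^[N] a) := by
    induction N with
    | zero => simp
    | succ N ih =>
      rw [Finset.sum_range_succ, iterate_succ_apply']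
      have := (h.iter N).pot_step (hb N (by omega)) (hp N (by omega))
      linarith [ih (fun k hk => hb k (by omega)) fun k hk => hp k (by omega)]
  linarith [h.pot_mem.1, (h.iter N).pot_mem.2]

theorem On.sum_le' (h : On a) (N : ℕ) (hb : ∀ k < N, ¬ Big 4096 (FF^[k] a)) :
    ∑ k ∈ Finset.range N, gain (FF^[k] a) ≤ 900 := by
  classical
  by_cases hp : ∃ k, k < N ∧ -5 < tt (FF^[k] a) ∧ tt (FF^[k] a) ≤ -4
  swap
  · linarith [h.sum_le N hb fun k hk e => hp ⟨k, hk, e⟩]
  obtain ⟨h1, h2, h3⟩ := Nat.find_spec hp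
  have h4 := fun k => Nat.find_min hp (m := k)
  generalize Nat.find hp = n at *
  obtain ⟨m, rfl⟩ := Nat.exists_eq_add_of_lt h1
  rw [add_right_comm, Finset.sum_range_add, Finset.sum_range_succ]
  have s1 := h.sum_le n (fun k hk => hb k (by omega)) fun k hk e => h4 k hk ⟨by omega, e⟩
  have s2 : gain (FF^[n] a) ≤ 1 := min_le_left _ _
  have t1 := (h.iter n).tt_far (by linarith)
  rw [← iterate_succ_apply' FF] at t1
  have hb' : ∀ k < m, ¬ Big 4096 (FF^[k] (FF^[n + 1] a)) := fun k hk => by
    rw [← iterate_add_apply]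
    exact hb _ (by omega)
  have s3 := (h.iter (n + 1)).sum_le m hb' fun k hk e => by
    linarith [(h.iter (n + 1)).after (by linarith) (by linarith) k fun i hi => hb' i (by omega), e.2]
  simp only [← iterate_add_apply, add_comm _ (n + 1)] at s3
  linarith

theorem On.gain_zero (h : On a) (h0 : gain a = 0) : -1 ≤ tt a ∧ tt a ≤ 1 / 2 ∧ ZZ a = -1 ∧
    mu a = 0 ∧ ∀ k, ‖zc k a‖ ≤ 1 / 32 := by
  have h1 : mu a ^ 2 + push a + (1 - ell (tt a)) = 0 :=
    (min_eq_iff.mp h0).elim (fun e => by simpa using e.1) fun e => e.1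
  have h2 : ell (tt a) ≤ 1 := SS1 _ _
  have h3 := h.push_nonneg
  have h4 := sq_nonneg (mu a)
  have e1 : mu a = 0 := pow_eq_zero_iff two_ne_zero |>.mp (by linarith)
  have e2 : ell (tt a) = 1 := by linarith
  have e3 : push a = 0 := by linarith
  have t1 : -1 ≤ tt a := by
    have : S (tt a + 2) = 1 := by
      unfold ell at e2
      nlinarith [Sl (tt a + 2), Sl (2 - tt a), Sn (tt a + 2)]
    linarith [smoothTransition.eq_one_iff_one_le.mp this]
  have t2 : tt a ≤ 1 := by
    have : S (2 - tt a) = 1 := by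
      unfold ell at e2
      nlinarith [Sl (tt a + 2), Sl (2 - tt a), Sn (2 - tt a)]
    linarith [smoothTransition.eq_one_iff_one_le.mp this]
  rw [push, e1, e2, bump, S1 (x := 5 - _) (by linarith)] at e3
  have p0 : 0 < S (1 / 20 - 0) := smoothTransition.pos_of_pos (by norm_num)
  have p1 := h.Z_mem.1
  have p2 := Sn (‖zc false a‖ ^ 2 - 1 / 1024)
  have p3 := Sn (‖zc true a‖ ^ 2 - 1 / 1024)
  have p4 := Sn (2 * tt a - 1)
  have p5 := mul_nonneg p0.le (show 0 ≤ 1 + ZZ a + S (‖zc false a‖ ^ 2 - 1 / 1024) +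
    S (‖zc true a‖ ^ 2 - 1 / 1024) by linarith)
  have p6 := (mul_eq_zero.mp (p5.antisymm' (by linarith))).resolve_left p0.ne'
  have p7 := smoothTransition.zero_iff_nonpos.mp (show S (2 * tt a - 1) = 0 by linarith)
  refine ⟨t1, by linarith, by linarith, e1, fun k => ?_⟩
  have : S (‖zc k a‖ ^ 2 - 1 / 1024) = 0 := by cases k <;> linarith
  have := smoothTransition.zero_iff_nonpos.mp this
  nlinarith [norm_nonneg (zc k a)]

theorem On.zc_zero (h : On a) (h0 : ∀ j, gain (FF^[j] a) = 0) (k : Bool) : zc k a = 0 := by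
  have key : ∀ j, ‖zc false (FF^[j] a)‖ + ‖zc true (FF^[j] a)‖ =
      8 ^ j * (‖zc false a‖ + ‖zc true a‖) := by
    intro j
    induction j with
    | zero => simp
    | succ j ih =>
      obtain ⟨t1, -, hz, -, hn⟩ := (h.iter j).gain_zero (h0 j)
      have e : ∀ k, ‖yy k (FF^[j] a)‖ = 8 * ‖zc (!k) (FF^[j] a)‖ := fun k => by
        simp [yy, a0_zero (t := tt (FF^[j] a)) (by linarith),
          be_zero (t := tt (FF^[j] a)) (by linarith)]
      have hb : ¬ Big 4096 (FF^[j] a) := by rw [Big, hz]; norm_num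
      rw [iterate_succ_apply', zc'_eq hb (by rw [e]; linarith [hn (!false)]),
        zc'_eq hb (by rw [e]; linarith [hn (!true)]), e, e, pow_succ]
      simp only [Bool.not_true, Bool.not_false]
      linarith
  by_contra hk
  have h1 : 0 < ‖zc false a‖ + ‖zc true a‖ := by
    have := norm_pos_iff.mpr hk
    cases k <;> linarith [norm_nonneg (zc false a), norm_nonneg (zc true a)]
  obtain ⟨j, hj⟩ := pow_unbounded_of_one_lt (2 / (‖zc false a‖ + ‖zc true a‖))
    (show (1 : ℝ) < 8 by norm_num)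
  rw [div_lt_iff₀ h1, ← key] at hj
  linarith [(h.iter j).zc_le false, (h.iter j).zc_le true]

theorem Big.mono (h : On a) {r s : ℝ} (h0 : 0 ≤ r) (hrs : r ≤ s) (hb : Big s a) : Big r a :=
  lt_of_le_of_lt (mul_le_mul_of_nonneg_right (by gcongr) (by linarith [h.Z_mem.2])) hb

theorem On.big_iter (h : On a) (hb : Big 4096 a) (n : ℕ) : Big (2 ^ n * 4096) (FF^[n] a) := by
  induction n with
  | zero => simpa using hb
  | succ n ih =>
    rw [iterate_succ_apply', pow_succ', mul_assoc]
    exact (h.iter n).big_FF (le_mul_of_one_le_left (by norm_num) (one_le_pow₀ one_le_two)) ih.le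

theorem FF_sink (hb : Big 8192 a) : DD a = 1 ∧ (FF a).2.2 = io 0 0 := by
  refine ⟨by simp [DD, ee_zero hb], ?_⟩
  simp only [FF_2, mu', zc', ee_zero hb, zero_mul, mul_zero, ofReal_zero]
  rfl

theorem am_iter (y : MM) (n : ℕ) : am (ff^[n] y) = FF^[n] (am y) :=
  Semiconj.iterate_right am_ff n y

theorem am_cont : Continuous am := am_smooth.continuous

theorem htop_ff : htop ff = 0 := by
  let Y₁ : Set MM := {y | -1 ≤ tt (am y) ∧ tt (am y) ≤ 1 / 2 ∧ ZZ (am y) = -1 ∧ mu (am y) = 0 ∧
    ∀ k, zc k (am y) = 0}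
  let Y₂ : Set MM := {y | ZZ (am y) = 1 ∧ (am y).2.2 = io 0 0}
  have hc := ff_smooth.continuous
  have cZ : Continuous fun y => ZZ (am y) := by have := am_cont; unfold ZZ; fun_prop
  have s1 : Shad ff Y₁ := by
    have key : ∀ y ∈ Y₁, ff y ∈ Y₁ ∧ FF (am y) = (1, mk3 0 (-1), io 0 0) := by
      rintro y ⟨t1, t2, hz, hm⟩
      obtain ⟨h1, h2, h3, h4⟩ := (on_am y).calm0 hz (by linarith) t2 (.inr hm)
      rw [ell_one t1 (by linarith), sub_self, zero_mul] at h4
      refine ⟨⟨by rw [am_ff, h4]; norm_num, by rw [am_ff, h4]; norm_num, h1, (mu_FF _).trans h2,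
        fun k => (zc_FF k _).trans (h3 k)⟩, Prod.ext ?_ (Prod.ext (ext3 ?_ h1) ?_)⟩
      · have := norm_mul_exp_arg_mul_I (FF (am y)).1
        rw [(on_am y).map.h1, (mul_eq_zero.mp h4).resolve_left (by positivity)] at this
        simpa using this.symm
      · have := (on_am y).map.zt_sq
        rw [h1] at this
        simpa [zt] using this
      · simp only [FF_2, h2, h3, mul_zero]
        rfl
    refine shad_of_le (fun y hy => (key y hy).1) fun y hy z hz => ?_
    have : ff y = ff z := by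
      have := (key y hy).2.trans (key z hz).2.symm
      exact Prod.ext (Subtype.ext (congrArg Prod.fst this)) (Prod.ext
        (Subtype.ext (congrArg (·.2.1) this)) (Subtype.ext (congrArg (·.2.2) this)))
    rw [this, dist_self]
    exact dist_nonneg
  have s2 : Shad ff Y₂ := by
    have key : ∀ y ∈ Y₂, Big 8192 (am y) := fun y hy => by rw [Big, hy.1]; norm_num
    refine shad_of_le (fun y hy => ⟨?_, (FF_sink (key y hy)).2⟩) fun y hy z hz => ?_
    · rw [am_ff, ZZ, (on_am y).top_FF hy.1, mk3_two]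
    · have : (ff y).2 = (ff z).2 := Prod.ext
        (Subtype.ext (((on_am y).top_FF hy.1).trans ((on_am z).top_FF hz.1).symm))
        (Subtype.ext ((FF_sink (key y hy)).2.trans (FF_sink (key z hz)).2.symm))
      rw [Prod.dist_eq, this, dist_self]
      refine max_le (le_trans (le_of_eq ?_) (le_max_left _ _)) dist_nonneg
      simp only [ff, (FF_sink (key y hy)).1, (FF_sink (key z hz)).1]
      generalize Circle.exp _ = c
      change dist ((y.1 : ℂ) * c) (z.1 * c) = dist (y.1 : ℂ) z.1
      rw [dist_eq_norm, dist_eq_norm, ← sub_mul, norm_mul, Circle.norm_coe, mul_one]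
  have : Nonempty MM := ⟨jj (toS (mk3 0 1) (mk3_ne fun _ => one_ne_zero))⟩
  refine htop_eq_zero hc (s1.union s2) fun x hx => ?_
  by_cases hB : ∃ j, Big 4096 (FF^[j] (am x))
  · obtain ⟨j, hj⟩ := hB
    obtain ⟨k, hk⟩ : ∃ k : ℕ, ¬ ((2 ^ k * 4096) ^ 2 * (1 - ZZ (am x)) ≤ 1 + ZZ (am x) ∧
        (am x).2.2 = io 0 0) := by
      by_contra! h
      refine hx (.inr ⟨?_, (h 0).2⟩)
      by_contra h'
      have h1 := sub_pos.mpr ((on_am x).Z_mem.2.lt_of_ne h')
      obtain ⟨k, hk⟩ := pow_unbounded_of_one_lt (2 / (1 - ZZ (am x))) one_lt_two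
      rw [div_lt_iff₀ h1] at hk
      have h2 : (2 : ℝ) ^ k ≤ (2 ^ k * 4096) ^ 2 := by
        have : (1 : ℝ) ≤ 2 ^ k := one_le_pow₀ one_le_two
        nlinarith
      nlinarith [(h k).1, mul_le_mul_of_nonneg_right h2 h1.le]
    have c1 : IsClosed {y | (2 ^ k * 4096) ^ 2 * (1 - ZZ (am y)) ≤ 1 + ZZ (am y)} :=
      isClosed_le (by fun_prop) (by fun_prop)
    have c2 : IsClosed {y | (am y).2.2 = io 0 0} := isClosed_eq am_cont.snd.snd continuous_const
    refine ⟨{y | Big 4096 (am (ff^[j] y)) ∧ ¬ ((2 ^ k * 4096) ^ 2 * (1 - ZZ (am y)) ≤ 1 + ZZ (am y) ∧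
      (am y).2.2 = io 0 0)}, IsOpen.mem_nhds (IsOpen.inter ?_ (c1.inter c2).isOpen_compl)
      ⟨by rwa [am_iter], hk⟩, j + k + 2, fun y s hs => ?_⟩
    · have := cZ.comp (hc.iterate j)
      exact isOpen_lt (continuous_const.mul (continuous_const.sub this)) (continuous_const.add this)
    rcases s.eq_empty_or_nonempty with rfl | hne
    · simp
    refine (Finset.card_le_card (t := Finset.Ico (s.min' hne) (s.min' hne + (j + k + 2)))
      fun n hn => Finset.mem_Ico.mpr ⟨s.min'_le n hn, lt_of_not_ge fun e => ?_⟩).trans (by simp)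
    obtain ⟨m, rfl⟩ := Nat.exists_eq_add_of_le e
    have h1 := (hs _ (s.min'_mem hne)).1
    refine (hs _ hn).2 ?_
    rw [show s.min' hne + (j + k + 2) + m = (k + m + 1 + 1) + (j + s.min' hne) by ring,
      iterate_add_apply, iterate_add_apply _ j, am_iter]
    generalize ff^[j] (ff^[s.min' hne] y) = z at h1
    have h2 : ∀ i n, i ≤ n → Big (2 ^ i * 4096) (FF^[n] (am z)) := fun i n e =>
      Big.mono ((on_am z).iter n) (by positivity) (by gcongr; norm_num) ((on_am z).big_iter h1 n)
    refine ⟨(h2 k _ (by omega)).le, ?_⟩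
    rw [iterate_succ_apply']
    have h3 := h2 1 (k + m + 1) (by omega)
    rw [show (2 : ℝ) ^ 1 * 4096 = 8192 by norm_num] at h3
    exact (FF_sink h3).2
  · push Not at hB
    obtain ⟨j, hj⟩ : ∃ j, gain (FF^[j] (am x)) ≠ 0 := by
      by_contra! h
      obtain ⟨t1, t2, hz, hm, -⟩ := (on_am x).gain_zero (h 0)
      exact hx (.inl ⟨t1, t2, hz, hm, (on_am x).zc_zero h⟩)
    have h1 := ((on_am x).iter j).gain_nonneg.lt_of_ne' hj
    set δ := gain (FF^[j] (am x)) / 2 with hδ
    have cG : Continuous fun y => gain (am y) :=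
      continuous_const.min (continuous_iff_continuousAt.mpr fun y =>
        (on_am y).smooth.2.2.2.2.continuousAt.comp am_cont.continuousAt)
    refine ⟨{y | δ < gain (am (ff^[j] y)) ∧
      1 + ZZ (am (ff^[j] y)) < 4096 ^ 2 * (1 - ZZ (am (ff^[j] y)))},
      IsOpen.mem_nhds (IsOpen.inter (isOpen_lt continuous_const (cG.comp (hc.iterate j))) ?_)
      ⟨by rw [am_iter]; linarith, ?_⟩, ⌊900 / δ⌋₊, fun y s hs => ?_⟩
    · have := cZ.comp (hc.iterate j)
      exact isOpen_lt (continuous_const.add this) (continuous_const.mul (continuous_const.sub this))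
    · rw [am_iter]
      by_contra! h
      have := ((on_am x).iter j).big_FF le_rfl h
      rw [← iterate_succ_apply' FF] at this
      exact hB _ (Big.mono ((on_am x).iter _) (by norm_num) (by norm_num) this)
    rcases s.eq_empty_or_nonempty with rfl | hne
    · simp
    refine Nat.le_floor ((le_div_iff₀ (by linarith)).mpr (le_trans ?_
      ((on_am y).sum_le' (j + s.max' hne + 1) fun k hk hb => ?_)))
    · rw [← nsmul_eq_mul]
      refine (Finset.card_nsmul_le_sum s (fun n => gain (FF^[j + n] (am y))) δ fun n hn => ?_).trans ?_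
      · have := (hs n hn).1.le
        rwa [← iterate_add_apply, am_iter] at this
      · refine (Finset.sum_map s (addLeftEmbedding j) fun n => gain (FF^[n] (am y))).ge.trans
          (Finset.sum_le_sum_of_subset_of_nonneg (fun n hn => ?_)
            fun n _ _ => ((on_am y).iter n).gain_nonneg)
        obtain ⟨i, hi, rfl⟩ := Finset.mem_map.mp hn
        have := s.le_max' i hi
        simp only [addLeftEmbedding_apply, Finset.mem_range]
        omega
    · obtain ⟨m, hm⟩ := Nat.exists_eq_add_of_le' (Nat.le_of_lt_succ hk)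
      have h2 := (hs _ (s.max'_mem hne)).2
      rw [← iterate_add_apply, am_iter, hm, iterate_add_apply] at h2
      exact h2.not_gt (Big.mono (((on_am y).iter k).iter m) (by norm_num)
        (le_mul_of_one_le_left (by norm_num) (one_le_pow₀ one_le_two))
        (((on_am y).iter k).big_iter hb m))

end Vale.Agent.P103
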