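import Vale.Agent.P103.Chain

/-! The Euler cocycle of the Hopf bundle on singular simplices of the two-sphere. -/

namespace Vale.Agent.P103

open CategoryTheory Complex ComplexConjugate

abbrev E3 : Type := EuclideanSpace ℝ (Fin 3)

def ze (v : E3) : ℂ := v 0 + v 1 * I

noncomputable def mk3 (ζ : ℂ) (Z : ℝ) : E3 := !₂[ζ.re, ζ.im, Z]

@[simp] theorem ze_mk3 (ζ : ℂ) (Z : ℝ) : ze (mk3 ζ Z) = ζ := by simp [ze, mk3]

@[simp] theorem mk3_two (ζ : ℂ) (Z : ℝ) : mk3 ζ Z 2 = Z := rfl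

theorem ze_smul (c : ℝ) (v : E3) : ze (c • v) = c * ze v := by simp [ze]; ring

theorem ze_sub (v w : E3) : ze (v - w) = ze v - ze w := by simp [ze]; ring

theorem norm3 (v : E3) : ‖v‖ ^ 2 = ‖ze v‖ ^ 2 + v 2 ^ 2 := by
  rw [EuclideanSpace.real_norm_sq_eq, Fin.sum_univ_three, Complex.sq_norm, ze, normSq_add_mul_I]

theorem ext3 {v w : E3} (h : ze v = ze w) (h' : v 2 = w 2) : v = w := by
  have h0 := congrArg re h
  have h1 := congrArg im h
  simp [ze] at h0 h1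
  ext i
  fin_cases i <;> assumption

@[fun_prop] theorem ofReal_contDiff : ContDiff ℝ 1 (fun x : ℝ => (x : ℂ)) := ofRealCLM.contDiff

@[fun_prop] theorem ze_contDiff : ContDiff ℝ 1 ze := by
  unfold ze
  fun_prop

@[fun_prop] theorem ze_cont : Continuous ze := ze_contDiff.continuous

@[fun_prop] theorem mk3_contDiff {X : Type} [NormedAddCommGroup X] [NormedSpace ℝ X] {a : X → ℂ}
    {b : X → ℝ} {x : X} (ha : ContDiffAt ℝ 1 a x) (hb : ContDiffAt ℝ 1 b x) :
    ContDiffAt ℝ 1 (fun x => mk3 (a x) (b x)) x := by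
  refine contDiffAt_euclidean.mpr fun i => ?_
  fin_cases i
  exacts [reCLM.contDiff.contDiffAt.comp x ha, imCLM.contDiff.contDiffAt.comp x ha, hb]

@[fun_prop] theorem mk3_cont {X : Type} [TopologicalSpace X] {a : X → ℂ}
    {b : X → ℝ} (ha : Continuous a) (hb : Continuous b) : Continuous fun x => mk3 (a x) (b x) := by
  unfold mk3
  fun_prop

theorem sph_sq (p : Sph 2) : ‖ze p.1‖ ^ 2 + p.1 2 ^ 2 = 1 := by
  rw [← norm3, norm_eq_of_mem_sphere, one_pow]

theorem sph_conj (p : Sph 2) : conj (ze p.1) * ze p.1 = 1 - (p.1 2 : ℂ) ^ 2 := by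
  rw [conj_mul', eq_sub_iff_add_eq]
  exact_mod_cast sph_sq p

/-- normalisation -/
noncomputable def toS (v : E3) (h : v ≠ 0) : Sph 2 :=
  ⟨‖v‖⁻¹ • v, by simp [norm_smul, h]⟩

theorem mk3_ne {ζ : ℂ} {Z : ℝ} (h : ζ = 0 → Z ≠ 0) : mk3 ζ Z ≠ 0 := fun e =>
  h ((ze_mk3 ζ Z).symm.trans (by simp [e, ze])) ((mk3_two ζ Z).symm.trans (by simp [e]))

theorem toS_cont {X : Type} [TopologicalSpace X] {v : X → E3} (hv : Continuous v)
    (h : ∀ x, v x ≠ 0) : Continuous fun x => toS (v x) (h x) :=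
  Continuous.subtype_mk ((hv.norm.inv₀ fun x => norm_ne_zero_iff.mpr (h x)).smul hv) _

/-- the projection on the line attached to a point of the sphere -/
noncomputable def pj (p : E3) (v : ℂ × ℂ) : ℂ × ℂ :=
  (((1 - p 2) * v.1 + conj (ze p) * v.2) / 2, (ze p * v.1 + (1 + p 2) * v.2) / 2)

theorem pj_pj (p : Sph 2) (v : ℂ × ℂ) : pj p.1 (pj p.1 v) = pj p.1 v := by
  have := sph_conj p
  ext
  · simp only [pj]
    linear_combination v.1 / 4 * this
  · simp only [pj]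
    linear_combination v.2 / 4 * this

theorem pj_near {p q : E3} (h : dist p q < 1) {v : ℂ × ℂ} (hv : pj q v = v) (h0 : v ≠ 0) :
    pj p v ≠ 0 := by
  intro e
  rw [dist_eq_norm] at h
  have h1 := norm3 (p - q)
  have h2 : ‖ze p - ze q‖ < 1 := by
    rw [← ze_sub]; nlinarith [norm_nonneg (p - q), norm_nonneg (ze (p - q)), sq_nonneg ((p - q) 2)]
  have h3 : ‖((p 2 : ℂ) - q 2)‖ < 1 := by
    rw [← ofReal_sub, norm_real, ← PiLp.sub_apply]
    exact (PiLp.norm_apply_le _ _).trans_lt h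
  have h4 := norm_pos_iff.mpr h0
  have a1 := congrArg Prod.fst hv
  have a2 := congrArg Prod.snd hv
  have b1 := congrArg Prod.fst e
  have b2 := congrArg Prod.snd e
  simp only [pj, Prod.fst_zero, Prod.snd_zero] at a1 a2 b1 b2
  have c1 : 2 * v.1 = ((p 2 : ℂ) - q 2) * v.1 - conj (ze p - ze q) * v.2 := by
    rw [map_sub]; linear_combination 2 * b1 - 2 * a1
  have c2 : 2 * v.2 = - ((p 2 : ℂ) - q 2) * v.2 - (ze p - ze q) * v.1 := by
    linear_combination 2 * b2 - 2 * a2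
  have d1 := (congrArg norm c1).trans_le (norm_sub_le _ _)
  have d2 := (congrArg norm c2).trans_le (norm_sub_le _ _)
  simp only [norm_mul, norm_neg, Complex.norm_conj, norm_ofNat] at d1 d2
  have := norm_fst_le v
  have := norm_snd_le v
  have := norm_nonneg ((p 2 : ℂ) - q 2)
  have := norm_nonneg (ze p - ze q)
  rcases max_choice ‖v.1‖ ‖v.2‖ with h | h <;> rw [← Prod.norm_def] at h <;> nlinarith

/-- the total space of the bundle -/
abbrev PP : Type := {q : Sph 2 × ℂ × ℂ // pj q.1.1 q.2 = q.2 ∧ q.2 ≠ 0}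

def pr : C(PP, Sph 2) := ⟨fun q => q.1.1, by fun_prop⟩

variable {n : ℕ}

theorem exists_lift (σ : C(Sx n, Sph 2)) : ∃ τ : C(Sx n, PP), pr.comp τ = σ := by
  let S : Set C(Sx n, Sph 2) := {σ | ∃ τ : C(Sx n, PP), pr.comp τ = σ}
  have h1 : ∀ a b, dist a b < 1 → b ∈ S → a ∈ S := by
    rintro a _ h ⟨τ, rfl⟩
    refine ⟨⟨fun x => ⟨(a x, pj (a x).1 (τ x).1.2), pj_pj _ _, pj_near (q := (τ x).1.1.1)
      ((ContinuousMap.dist_apply_le_dist x).trans_lt h) (τ x).2.1 (τ x).2.2⟩, ?_⟩, rfl⟩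
    have := τ.continuous
    unfold pj
    fun_prop
  have h2 : IsClopen S := ⟨⟨Metric.isOpen_iff.mpr fun a ha => ⟨1, one_pos, fun b hb hb' =>
    ha (h1 a b (dist_comm a b ▸ hb) hb')⟩⟩,
    Metric.isOpen_iff.mpr fun a ha => ⟨1, one_pos, fun b hb => h1 b a hb ha⟩⟩
  obtain ⟨x0, ⟨H⟩⟩ := id_nullhomotopic (Sx n)
  have h3 := (h2.preimage ((ContinuousMap.continuous_postcomp σ).comp
    H.toContinuousMap.curry.continuous)).eq_univ ⟨1, ?_⟩
  · have : (0 : unitInterval) ∈ _ := h3.ge trivial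
    obtain ⟨τ, h⟩ := this
    exact ⟨τ, h.trans (by ext; simp)⟩
  · have : ∃ v, pj (σ x0).1 v ≠ 0 := by
      by_contra! h
      have a := congrArg Prod.fst (h (1, 0))
      have b := congrArg Prod.snd (h (0, 1))
      simp only [pj, Prod.fst_zero, Prod.snd_zero] at a b
      exact one_ne_zero (show (1 : ℂ) = 0 by linear_combination a + b)
    obtain ⟨v, hv⟩ := this
    exact ⟨.const _ ⟨(σ x0, pj (σ x0).1 v), pj_pj _ _, hv⟩, by ext; simp [pr]⟩

noncomputable def lft (σ : C(Sx n, Sph 2)) : C(Sx n, PP) := (exists_lift σ).choose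

theorem pr_lft (σ : C(Sx n, Sph 2)) : pr.comp (lft σ) = σ := (exists_lift σ).choose_spec

noncomputable def ip (u v : ℂ × ℂ) : ℂ := conj u.1 * v.1 + conj u.2 * v.2

theorem ip_self {u : ℂ × ℂ} (h : u ≠ 0) : ip u u ≠ 0 := by
  rw [ip, conj_mul', conj_mul']
  intro e
  have : ‖u.1‖ ^ 2 + ‖u.2‖ ^ 2 = 0 := by exact_mod_cast e
  refine h (Prod.ext (norm_eq_zero.mp ?_) (norm_eq_zero.mp ?_)) <;> nlinarith

theorem prop_of (a b : PP) (h : pr a = pr b) :
    b.1.2 = (ip a.1.2 b.1.2 / ip a.1.2 a.1.2) • a.1.2 := by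
  obtain ⟨⟨p, u⟩, hu, hu0⟩ := a
  obtain ⟨⟨q, v⟩, hv, hv0⟩ := b
  obtain rfl : p = q := h
  have hd : (pj p.1 u).1 * (pj p.1 v).2 - (pj p.1 u).2 * (pj p.1 v).1 = 0 := by
    simp only [pj]
    linear_combination (u.2 * v.1 - u.1 * v.2) / 4 * sph_conj p
  rw [hu, hv] at hd
  have := ip_self hu0
  ext <;> simp only [Prod.smul_fst, Prod.smul_snd, smul_eq_mul] <;> field_simp <;> simp only [ip]
  · linear_combination (-conj u.2) * hd
  · linear_combination conj u.1 * hd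

theorem ip_ne (a b : PP) (h : pr a = pr b) : ip a.1.2 b.1.2 ≠ 0 := fun e =>
  b.2.2 (by rw [prop_of a b h, e, zero_div, zero_smul])

noncomputable def cA (τ : C(Sx 1, PP)) : ℝ := var fun x => ip (lft (pr.comp τ) x).1.2 (τ x).1.2

theorem cA_eq {τ τ' : C(Sx 1, PP)} (h : pr.comp τ = pr.comp τ') (L : C(Sx 1, ℂ))
    (hL : ∀ x, (τ' x).1.2 = exp (L x) • (τ x).1.2) :
    cA τ' = cA τ + (L (vx 1) - L (vx 0)).im := by
  obtain ⟨K, hK⟩ := exists_log ⟨fun x => ip (lft (pr.comp τ) x).1.2 (τ x).1.2, by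
    unfold ip; fun_prop⟩ fun x => ip_ne _ _ (DFunLike.congr_fun (pr_lft (pr.comp τ)) x)
  simp only [ContinuousMap.coe_mk] at hK
  rw [cA, cA, var_eq K hK, var_eq (K + L), ← add_im]
  · congr 1
    simp only [ContinuousMap.add_apply]
    ring
  · intro x
    rw [ContinuousMap.add_apply, exp_add, hK, hL, ← h]
    simp only [ip, Prod.smul_fst, Prod.smul_snd, smul_eq_mul]
    ring

noncomputable def cE (τ : C(Sx 2, PP)) : ℝ :=
  cA (τ.comp (face 0)) - cA (τ.comp (face 1)) + cA (τ.comp (face 2))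

theorem cE_eq {τ τ' : C(Sx 2, PP)} (h : pr.comp τ = pr.comp τ') : cE τ' = cE τ := by
  have h1 : ∀ x, pr (τ x) = pr (τ' x) := fun x => DFunLike.congr_fun h x
  obtain ⟨L, hL⟩ := exists_log ⟨fun x => ip (τ x).1.2 (τ' x).1.2 / ip (τ x).1.2 (τ x).1.2,
    Continuous.div (by unfold ip; fun_prop) (by unfold ip; fun_prop) fun x => ip_ne _ _ rfl⟩
    fun x => div_ne_zero (ip_ne _ _ (h1 x)) (ip_ne _ _ rfl)
  have h2 : ∀ i : Fin 3, cA (τ'.comp (face i)) = cA (τ.comp (face i)) +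
      (L (vx (i.succAbove 1)) - L (vx (i.succAbove 0))).im := fun i => by
    rw [← face_vertex, ← face_vertex]
    exact cA_eq (τ := τ.comp (face i)) (τ' := τ'.comp (face i))
      (congrArg (fun g => ContinuousMap.comp g (face i)) h) (L.comp (face i))
      fun x => by rw [ContinuousMap.comp_apply L, hL]; exact prop_of _ _ (h1 _)
  rw [cE, cE, h2, h2, h2]
  simp only [sub_im, show (0 : Fin 3).succAbove 1 = 2 from rfl, show (0 : Fin 3).succAbove 0 = 1 from rfl,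
    show (1 : Fin 3).succAbove 1 = 2 from rfl, show (1 : Fin 3).succAbove 0 = 0 from rfl,
    show (2 : Fin 3).succAbove 1 = 1 from rfl, show (2 : Fin 3).succAbove 0 = 0 from rfl]
  ring

noncomputable def euler : (CC.obj (TopCat.of (Sph 2))).X 2 ⟶ RR := coch fun σ => cE (lft σ)

theorem ch_euler (τ : C(Sx 2, PP)) : ch (pr.comp τ) ≫ euler = cE τ • 𝟙 RR := by
  rw [euler, ch_coch, ← cE_eq (pr_lft _)]

theorem d_euler : (CC.obj (TopCat.of (Sph 2))).d 3 2 ≫ euler = 0 := by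
  have h1 : (CC.map (TopCat.ofHom pr)).f 2 ≫ euler = (CC.obj (TopCat.of PP)).d 2 1 ≫ coch cA :=
    ch_ext fun τ => by
      rw [← Category.assoc, ch_map, ch_euler, ← Category.assoc, ch_d2]
      simp only [Preadditive.add_comp, Preadditive.sub_comp, ch_coch, cE, add_smul, sub_smul]
  refine ch_ext fun σ => ?_
  rw [← pr_lft σ, ← ch_map, Category.assoc, ← Category.assoc _ _ euler,
    (CC.map (TopCat.ofHom pr)).comm, Category.assoc, h1, HomologicalComplex.d_comp_d_assoc]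
  simp

end Vale.Agent.P103
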