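import Vale.Agent.P103.Burst

/-! The map, on an ambient vector space. -/

namespace Vale.Agent.P103

open Complex ComplexConjugate Real

abbrev E6 : Type := EuclideanSpace ℝ (Fin 6)

abbrev AA : Type := ℂ × E3 × E6

noncomputable def io (m : ℝ) (z : Bool → ℂ) : E6 :=
  !₂[m, (z false).re, (z false).im, (z true).re, (z true).im,
    √(1 - m ^ 2 - ‖z false‖ ^ 2 - ‖z true‖ ^ 2)]

noncomputable def tt (a : AA) : ℝ := 10 / π * arg a.1
def ZZ (a : AA) : ℝ := a.2.1 2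
def zt (a : AA) : ℂ := ze a.2.1
noncomputable def mu (a : AA) : ℝ := a.2.2 0 / 2
def zc (k : Bool) (a : AA) : ℂ := cond k (a.2.2 3 + a.2.2 4 * I) (a.2.2 1 + a.2.2 2 * I)

noncomputable def ell (t : ℝ) : ℝ := S (t + 2) * S (2 - t)
noncomputable def bump (t : ℝ) : ℝ := S (2 * t - 1) * S (5 - 2 * t)
noncomputable def a0 (t : ℝ) : ℝ := S (t + 5) * S (-4 * t - 9)
noncomputable def rs (t : ℝ) : ℝ := S (t + 5) * S (-2 * t - 5)
noncomputable def ka (t : ℝ) : ℝ := S (t + 5) * S (-4 * t - 12)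
noncomputable def be (t : ℝ) : ℝ := S (4 * t + 14) * S (-4 * t - 8)
noncomputable def sat (x : ℝ) : ℝ := x + S (30 * x - 5) * (1 / 5 - x)

noncomputable def ee (a : AA) : ℝ := S (8192 ^ 2 * (1 - ZZ a) - (1 + ZZ a))
noncomputable def push (a : AA) : ℝ := ell (tt a) * S (1 / 20 - mu a) *
  ((1 + ZZ a) + S (‖zc false a‖ ^ 2 - 1 / 1024) + S (‖zc true a‖ ^ 2 - 1 / 1024)) + bump (tt a)
noncomputable def mu' (a : AA) : ℝ :=
  ee a * ((1 - rs (tt a)) * sat (mu a / (1 - mu a) + push a) + rs (tt a) * ((1 + ZZ a) / 20))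
noncomputable def DD (a : AA) : ℝ :=
  1 + ee a * (ell (tt a) * (3 * S (24 * mu' a - 3) - 1) - ell (tt a) * tt a)
noncomputable def cc (a : AA) : ℝ := 1 - (1 - ka (tt a)) * (1 - S (2 * ZZ a))
noncomputable def bb (a : AA) : ℂ :=
  (2 ^ 23 * (1 - a0 (tt a)) * S (190 * mu a - 19) : ℝ) * zc true a
noncomputable def yy (k : Bool) (a : AA) : ℂ :=
  (8 * (1 - a0 (tt a)) : ℝ) * zc (!k) a + be (tt a) * GG k (mu' a, zt a)
noncomputable def zc' (k : Bool) (a : AA) : ℂ := (ee a * S (2 - 16 * ‖yy k a‖ ^ 2) : ℝ) * yy k a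
noncomputable def VV (a : AA) : E3 :=
  mk3 (2 * (cc a * zt a ^ 2 + bb a * (1 - ZZ a : ℝ) ^ 2))
    (cc a ^ 2 * (1 + ZZ a) ^ 2 + 2 * cc a * (zt a ^ 2 * conj (bb a)).re +
      ‖bb a‖ ^ 2 * (1 - ZZ a) ^ 2 - (1 - ZZ a) ^ 2)

/-- the map -/
noncomputable def FF (a : AA) : AA :=
  (a.1 * exp ((π / 10 * DD a : ℝ) * I), ‖VV a‖⁻¹ • VV a, io (2 * mu' a) fun k => zc' k a)

structure On (a : AA) : Prop where
  h1 : ‖a.1‖ = 1
  h2 : ‖a.2.1‖ = 1
  h3 : ‖a.2.2‖ = 1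

variable {a : AA}

theorem SS0 (x y : ℝ) : 0 ≤ S x * S y := mul_nonneg (Sn _) (Sn _)

theorem SS1 (x y : ℝ) : S x * S y ≤ 1 := mul_le_one₀ (Sl _) (Sn _) (Sl _)

theorem norm6 (v : E6) : ‖v‖ ^ 2 =
    v 0 ^ 2 + ‖v 1 + v 2 * I‖ ^ 2 + ‖v 3 + v 4 * I‖ ^ 2 + v 5 ^ 2 := by
  rw [EuclideanSpace.real_norm_sq_eq, Fin.sum_univ_six, Complex.sq_norm, Complex.sq_norm,
    normSq_add_mul_I, normSq_add_mul_I]
  ring

theorem norm_io {m : ℝ} {z : Bool → ℂ} (h : m ^ 2 + ‖z false‖ ^ 2 + ‖z true‖ ^ 2 ≤ 1) :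
    ‖io m z‖ = 1 := by
  rw [← sq_eq_sq₀ (norm_nonneg _) zero_le_one, norm6]
  simp [io, Real.sq_sqrt (show 0 ≤ 1 - m ^ 2 - ‖z false‖ ^ 2 - ‖z true‖ ^ 2 by linarith)]

theorem On.zt_sq (h : On a) : ‖zt a‖ ^ 2 = (1 - ZZ a) * (1 + ZZ a) := by
  have := norm3 a.2.1
  rw [h.h2] at this
  unfold zt ZZ
  linarith

theorem On.Z_mem (h : On a) : -1 ≤ ZZ a ∧ ZZ a ≤ 1 :=
  abs_le.mp (sq_le_one_iff_abs_le_one _ |>.mp (by nlinarith [h.zt_sq, sq_nonneg ‖zt a‖]))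

theorem On.mu_mem (h : On a) : -(1 / 2) ≤ mu a ∧ mu a ≤ 1 / 2 := by
  have := PiLp.norm_apply_le a.2.2 0
  rw [h.h3, Real.norm_eq_abs, abs_le] at this
  unfold mu
  constructor <;> linarith

theorem On.zc_le (h : On a) (k : Bool) : ‖zc k a‖ ≤ 1 := by
  have := norm6 a.2.2
  rw [h.h3] at this
  refine abs_le_one_iff_mul_self_le_one.mpr ?_ |>.trans' (le_abs_self _)
  cases k <;> simp only [zc, cond] <;> nlinarith [sq_nonneg (a.2.2 0), sq_nonneg (a.2.2 5),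
    sq_nonneg ‖a.2.2 1 + a.2.2 2 * I‖, sq_nonneg ‖a.2.2 3 + a.2.2 4 * I‖]

theorem On.push_nonneg (h : On a) : 0 ≤ push a :=
  add_nonneg (mul_nonneg (mul_nonneg (SS0 _ _) (Sn _))
    (add_nonneg (add_nonneg (by linarith [h.Z_mem.1]) (Sn _)) (Sn _))) (SS0 _ _)

theorem On.le_g (h : On a) : mu a + mu a ^ 2 / 2 ≤ mu a / (1 - mu a) := by
  obtain ⟨h1, h2⟩ := h.mu_mem
  rw [le_div_iff₀ (by linarith)]
  nlinarith [sq_nonneg (mu a)]

theorem sat_le (x : ℝ) : sat x ≤ 1 / 5 := by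
  unfold sat
  rcases le_total x (1 / 5) with h | h
  · nlinarith [Sl (30 * x - 5)]
  · rw [S1 (by linarith)]; linarith

theorem le_sat (x : ℝ) : min x (1 / 5) ≤ sat x := by
  unfold sat
  rcases le_total x (1 / 5) with h | h
  · rw [min_eq_left h]; nlinarith [Sn (30 * x - 5)]
  · rw [S1 (by linarith), min_eq_right h]; linarith

theorem sat_eq {x : ℝ} (h : x ≤ 1 / 6) : sat x = x := by
  rw [sat, S0 (by linarith), zero_mul, add_zero]

theorem On.mu'_sq (h : On a) : mu' a ^ 2 ≤ 1 / 9 := by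
  have h1 := sat_le (mu a / (1 - mu a) + push a)
  have h2 : -(1 / 3) ≤ sat (mu a / (1 - mu a) + push a) := by
    refine (le_min ?_ (by norm_num)).trans (le_sat _)
    obtain ⟨h1, h2⟩ := h.mu_mem
    refine le_add_of_le_of_nonneg ?_ h.push_nonneg
    rw [le_div_iff₀ (by linarith)]
    linarith
  obtain ⟨h3, h4⟩ := h.Z_mem
  have h5 : 0 ≤ rs (tt a) := SS0 _ _
  have h6 : rs (tt a) ≤ 1 := SS1 _ _
  have h7 : |(1 - rs (tt a)) * sat (mu a / (1 - mu a) + push a) +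
      rs (tt a) * ((1 + ZZ a) / 20)| ≤ 1 / 3 := by
    rw [abs_le]
    constructor <;> nlinarith
  have h8 : |mu' a| ≤ 1 / 3 := by
    rw [mu', abs_mul, ee, abs_of_nonneg (Sn _)]
    exact (mul_le_of_le_one_left (abs_nonneg _) (Sl _)).trans h7
  nlinarith [sq_abs (mu' a), abs_nonneg (mu' a)]

theorem zc'_sq (k : Bool) (a : AA) : ‖zc' k a‖ ^ 2 ≤ 1 / 8 := by
  rw [zc', norm_mul, norm_real, ee, Real.norm_of_nonneg (SS0 _ _), mul_pow]
  rcases le_total (‖yy k a‖ ^ 2) (1 / 8) with h | h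
  · exact (mul_le_of_le_one_left (by positivity) (pow_le_one₀ (SS0 _ _) (SS1 _ _))).trans h
  · rw [S0 (x := 2 - _) (by linarith)]; norm_num

theorem On.io_lt (h : On a) : (2 * mu' a) ^ 2 + ‖zc' false a‖ ^ 2 + ‖zc' true a‖ ^ 2 < 1 := by
  nlinarith [h.mu'_sq, zc'_sq false a, zc'_sq true a]

theorem cc_mem (a : AA) : 0 ≤ cc a ∧ cc a ≤ 1 := by
  have h5 : 0 ≤ ka (tt a) := SS0 _ _
  have h6 : ka (tt a) ≤ 1 := SS1 _ _
  unfold cc
  constructor <;> nlinarith [Sn (2 * ZZ a), Sl (2 * ZZ a)]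

theorem cc_one (h : 1 / 2 ≤ ZZ a) : cc a = 1 := by
  rw [cc, S1 (by linarith)]; ring

/-- the affine coordinate on the two-sphere -/
noncomputable def WW (a : AA) : ℂ := zt a / (1 - ZZ a : ℝ)

theorem On.VV_eq (h : On a) (hz : ZZ a < 1) : VV a = (1 - ZZ a) ^ 2 •
    mk3 (2 * (cc a * WW a ^ 2 + bb a)) (‖cc a * WW a ^ 2 + bb a‖ ^ 2 - 1) := by
  have h0 : 1 - ZZ a ≠ 0 := by linarith
  have h1 : ((1 - ZZ a : ℝ) : ℂ) ≠ 0 := by exact_mod_cast h0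
  refine ext3 ?_ ?_
  · rw [ze_smul, ze_mk3, VV, ze_mk3, WW, ofReal_pow]
    field_simp
  · have h2 : ‖WW a‖ ^ 2 = (1 + ZZ a) / (1 - ZZ a) := by
      rw [WW, norm_div, div_pow, h.zt_sq, norm_real, Real.norm_eq_abs, sq_abs]
      field_simp
    have h3 : zt a ^ 2 * conj (bb a) = ((1 - ZZ a) ^ 2 : ℝ) * (WW a ^ 2 * conj (bb a)) := by
      rw [WW, ofReal_pow]
      field_simp
    rw [PiLp.smul_apply, mk3_two, VV, mk3_two, Complex.sq_norm (_ + _), normSq_add, mul_assoc (_ : ℂ),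
      re_ofReal_mul, h3, re_ofReal_mul, ← Complex.sq_norm, ← Complex.sq_norm, norm_mul, norm_pow,
      mul_pow, h2, norm_real, Real.norm_eq_abs, sq_abs, smul_eq_mul]
    field_simp
    ring

theorem On.VV_top (h : On a) (hz : ZZ a = 1) : VV a = mk3 0 4 := by
  have h1 : zt a = 0 := by simpa [hz] using h.zt_sq
  rw [VV, cc_one (by linarith), h1, hz]
  norm_num

theorem norm_st (w : ℂ) : ‖mk3 (2 * w) (‖w‖ ^ 2 - 1)‖ = ‖w‖ ^ 2 + 1 := by
  rw [← sq_eq_sq₀ (norm_nonneg _) (by positivity), norm3, ze_mk3, mk3_two, norm_mul,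
    Complex.norm_ofNat]
  ring

theorem On.VV_ne (h : On a) : VV a ≠ 0 := by
  rcases h.Z_mem.2.eq_or_lt with hz | hz
  · rw [h.VV_top hz]
    exact mk3_ne fun _ => by norm_num
  · rw [h.VV_eq hz, ← norm_ne_zero_iff, norm_smul, norm_st]
    have : 1 - ZZ a ≠ 0 := by linarith
    exact mul_ne_zero (norm_ne_zero_iff.mpr (pow_ne_zero _ this)) (by positivity)

theorem FF_2 (a : AA) : (FF a).2.2 = io (2 * mu' a) fun k => zc' k a := rfl

theorem On.map (h : On a) : On (FF a) :=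
  ⟨by rw [FF, norm_mul, h.h1, norm_exp_ofReal_mul_I, mul_one],
    by simp [FF, norm_smul, h.VV_ne], by rw [FF_2]; exact norm_io h.io_lt.le⟩

theorem On.iter (h : On a) (n : ℕ) : On (FF^[n] a) := Function.Iterate.rec On h (fun _ => On.map) n

theorem mu_FF (a : AA) : mu (FF a) = mu' a := by simp [mu, FF, io]

theorem zc_FF (k : Bool) (a : AA) : zc k (FF a) = zc' k a := by cases k <;> simp [zc, FF, io]

theorem On.W_FF (h : On a) (hz : ZZ a < 1) :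
    ZZ (FF a) < 1 ∧ WW (FF a) = cc a * WW a ^ 2 + bb a := by
  obtain ⟨w, hw⟩ : ∃ w, cc a * WW a ^ 2 + bb a = w := ⟨_, rfl⟩
  have h0 : 0 < (1 - ZZ a) ^ 2 := pow_pos (by linarith) _
  have h1 : (FF a).2.1 = (‖w‖ ^ 2 + 1)⁻¹ • mk3 (2 * w) (‖w‖ ^ 2 - 1) := by
    simp only [FF]
    rw [h.VV_eq hz, hw, norm_smul, norm_st, smul_smul, Real.norm_of_nonneg h0.le]
    congr 1
    generalize (1 - ZZ a) ^ 2 = r at h0
    field_simp
  have h2 : 1 - ZZ (FF a) = 2 / (‖w‖ ^ 2 + 1) := by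
    rw [ZZ, h1, PiLp.smul_apply, mk3_two, smul_eq_mul]
    field_simp
    ring
  refine ⟨by rw [← sub_pos, h2]; positivity, ?_⟩
  rw [hw, WW, h2, zt, h1, ze_smul, ze_mk3]
  have : ((‖w‖ ^ 2 + 1 : ℝ) : ℂ) ≠ 0 := by exact_mod_cast (by positivity)
  generalize ‖w‖ ^ 2 + 1 = r at *
  push_cast
  field_simp

theorem On.top_FF (h : On a) (hz : ZZ a = 1) : (FF a).2.1 = mk3 0 1 := by
  have : ‖mk3 0 4‖ = 4 := by
    rw [← sq_eq_sq₀ (norm_nonneg _) (by positivity), norm3]; simp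
  simp only [FF]
  rw [h.VV_top hz, this]
  exact ext3 (by simp [ze_smul]) (by simp)

theorem tt_mem (a : AA) : -10 < tt a ∧ tt a ≤ 10 := by
  have h1 := neg_pi_lt_arg a.1
  have h2 := arg_le_pi a.1
  have := pi_pos
  rw [tt, div_mul_eq_mul_div, lt_div_iff₀ this, div_le_iff₀ this]
  constructor <;> linarith

theorem On.tt_FF (h : On a) (k : ℤ) (h1 : -10 < tt a + DD a - 20 * k)
    (h2 : tt a + DD a - 20 * k ≤ 10) : tt (FF a) = tt a + DD a - 20 * k := by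
  have h0 := pi_pos
  have h3 : (FF a).1 = exp ((π / 10 * (tt a + DD a) : ℝ) * I) := by
    have := norm_mul_exp_arg_mul_I a.1
    rw [h.h1, ofReal_one, one_mul] at this
    simp only [FF]
    rw [mul_add, ofReal_add, add_mul, Complex.exp_add, tt, ← mul_assoc,
      show π / 10 * (10 / π) = 1 by field_simp, one_mul, this]
  rw [tt, h3, arg_exp_mul_I, (toIocMod_eq_iff _ (c := π / 10 * (tt a + DD a - 20 * k))).mpr
    ⟨⟨by nlinarith, by nlinarith⟩, k, by rw [zsmul_eq_mul]; ring⟩]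
  field_simp

end Vale.Agent.P103
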