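import Vale.Agent.P103.Map

/-! Orbits leaving the reset window are synchronised with the clock. -/

namespace Vale.Agent.P103

open Complex Real

variable {a : AA}

def Big (r : ℝ) (a : AA) : Prop := r ^ 2 * (1 - ZZ a) < 1 + ZZ a

theorem On.W_sq (h : On a) (hz : ZZ a < 1) : ‖WW a‖ ^ 2 * (1 - ZZ a) = 1 + ZZ a := by
  have h0 : 1 - ZZ a ≠ 0 := by linarith
  rw [WW, norm_div, div_pow, h.zt_sq, norm_real, Real.norm_eq_abs, sq_abs]
  field_simp

theorem On.lt_one (h : On a) {r : ℝ} (hb : ¬ Big r a) : ZZ a < 1 :=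
  h.Z_mem.2.lt_of_ne fun e => hb (by rw [Big, e]; norm_num)

theorem On.big_of (h : On a) (hz : ZZ a < 1) {r : ℝ} (h0 : 0 ≤ r) (hr : r < ‖WW a‖) : Big r a := by
  rw [Big, ← h.W_sq hz]
  exact mul_lt_mul_of_pos_right (by gcongr) (by linarith)

theorem ee_one (hb : ¬ Big 4096 a) : ee a = 1 := S1 (by rw [Big] at hb; linarith)

theorem ee_zero (hb : Big 8192 a) : ee a = 0 := S0 (by rw [Big] at hb; linarith)

theorem a0_mem (t : ℝ) : 0 ≤ a0 t ∧ a0 t ≤ 1 := ⟨SS0 _ _, SS1 _ _⟩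

theorem On.bb_le (h : On a) : ‖bb a‖ ≤ 2 ^ 23 := by
  obtain ⟨h1, h2⟩ := a0_mem (tt a)
  have h3 : 0 ≤ 2 ^ 23 * (1 - a0 (tt a)) := mul_nonneg (by norm_num) (by linarith)
  rw [bb, norm_mul, norm_real, Real.norm_of_nonneg (mul_nonneg h3 (Sn _))]
  refine (mul_le_of_le_one_right (mul_nonneg h3 (Sn _)) (h.zc_le _)).trans
    ((mul_le_of_le_one_right h3 (Sl _)).trans (by linarith))

theorem On.big_FF (h : On a) {r : ℝ} (hr : 4096 ≤ r) (hb : r ^ 2 * (1 - ZZ a) ≤ 1 + ZZ a) :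
    Big (2 * r) (FF a) := by
  rcases h.Z_mem.2.eq_or_lt with hz | hz
  · rw [Big, ZZ, h.top_FF hz]
    norm_num
  · obtain ⟨h1, h2⟩ := h.W_FF hz
    refine h.map.big_of h1 (by linarith) ?_
    have h3 : r ^ 2 ≤ ‖WW a‖ ^ 2 := le_of_mul_le_mul_right (hb.trans (h.W_sq hz).ge) (by linarith)
    have h4 := norm_sub_norm_le (WW a ^ 2) (-bb a)
    rw [norm_neg, sub_neg_eq_add, norm_pow] at h4
    rw [h2, cc_one (by nlinarith), ofReal_one, one_mul]
    nlinarith [h.bb_le]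

theorem ell_one {t : ℝ} (h : -1 ≤ t) (h' : t ≤ 1) : ell t = 1 := by
  rw [ell, S1 (by linarith), S1 (by linarith), mul_one]

theorem ell_zero {t : ℝ} (h : t ≤ -2) : ell t = 0 := by rw [ell, S0 (by linarith), zero_mul]

theorem bump_zero {t : ℝ} (h : t ≤ 1 / 2) : bump t = 0 := by rw [bump, S0 (by linarith), zero_mul]

theorem a0_zero {t : ℝ} (h : -9 / 4 ≤ t) : a0 t = 0 := by
  rw [a0, S0 (x := _ - 9) (by linarith), mul_zero]

theorem a0_one {t : ℝ} (h : -4 ≤ t) (h' : t ≤ -3) : a0 t = 1 := by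
  rw [a0, S1 (by linarith), S1 (by linarith), mul_one]

theorem rs_zero {t : ℝ} (h : -5 / 2 ≤ t) : rs t = 0 := by
  rw [rs, S0 (x := _ - 5) (by linarith), mul_zero]

theorem rs_one {t : ℝ} (h : -4 ≤ t) (h' : t ≤ -3) : rs t = 1 := by
  rw [rs, S1 (by linarith), S1 (by linarith), mul_one]

theorem be_zero {t : ℝ} (h : -2 ≤ t) : be t = 0 := by
  rw [be, S0 (x := _ - 8) (by linarith), mul_zero]

theorem On.tt_far (h : On a) (h1 : tt a ≤ -2) : tt (FF a) = tt a + 1 := by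
  have := tt_mem a
  have e : DD a = 1 := by rw [DD, ell_zero h1]; ring
  rw [h.tt_FF 0 (by rw [e]; push_cast; linarith) (by rw [e]; push_cast; linarith), e]
  simp

theorem On.tt_near (h : On a) (hb : ¬ Big 4096 a) (h1 : -4 ≤ tt a) (h2 : tt a ≤ 1)
    (h3 : mu' a ≤ 1 / 8) : tt (FF a) = (1 - ell (tt a)) * (tt a + 1) := by
  have e : tt a + DD a = (1 - ell (tt a)) * (tt a + 1) := by
    rw [DD, ee_one hb, S0 (by linarith)]; ring
  have h4 : 0 ≤ ell (tt a) := SS0 _ _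
  have h5 : ell (tt a) ≤ 1 := SS1 _ _
  rw [h.tt_FF 0 (by rw [e]; push_cast; nlinarith) (by rw [e]; push_cast; nlinarith), e]
  simp

theorem near_mem {t : ℝ} (h1 : -2 ≤ t) (h2 : t ≤ 0) :
    -2 ≤ (1 - ell t) * (t + 1) ∧ (1 - ell t) * (t + 1) ≤ 0 := by
  have h4 : 0 ≤ ell t := SS0 _ _
  have h5 : ell t ≤ 1 := SS1 _ _
  rcases le_total t (-1) with h | h
  · constructor <;> nlinarith
  · rw [ell_one h (by linarith)]; norm_num

theorem zc'_eq {k : Bool} (hb : ¬ Big 4096 a) (h : ‖yy k a‖ ≤ 1 / 4) : zc k (FF a) = yy k a := by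
  rw [zc_FF, zc', ee_one hb, S1 (by nlinarith [norm_nonneg (yy k a)])]
  simp

theorem On.calm0 (h : On a) (hz : ZZ a = -1) (h1 : -4 ≤ tt a) (h2 : tt a ≤ 1 / 2)
    (h3 : tt a ≤ -3 ∨ mu a = 0 ∧ ∀ k, zc k a = 0) : ZZ (FF a) = -1 ∧ mu' a = 0 ∧
      (∀ k, zc' k a = 0) ∧ tt (FF a) = (1 - ell (tt a)) * (tt a + 1) := by
  have hb : ¬ Big 4096 a := by rw [Big, hz]; norm_num
  have e1 : zt a = 0 := by simpa [hz] using h.zt_sq
  have e2 : mu' a = 0 := by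
    rcases h3 with h3 | ⟨h3, h4⟩
    · simp [mu', rs_one h1 h3, hz]
    · have : push a = 0 := by
        rw [push, bump_zero h2, h4, h4, hz, S0 (x := _ - 1 / 1024) (by norm_num)]; ring
      simp [mu', this, h3, hz, sat_eq]
  have e3 : ∀ k, yy k a = 0 := fun k => by
    rw [yy, e1, GG_zero]
    rcases h3 with h3 | ⟨-, h4⟩
    · simp [a0_one h1 h3]
    · simp [h4]
  have e4 : bb a = 0 := by
    rcases h3 with h3 | ⟨-, h4⟩
    · simp [bb, a0_one h1 h3]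
    · simp [bb, h4]
  obtain ⟨h5, h6⟩ := h.W_FF (h.lt_one hb)
  have h7 := h.map.W_sq h5
  rw [h6, e4, WW, e1] at h7
  refine ⟨?_, e2, fun k => by simp [zc', e3], h.tt_near hb h1 (by linarith) (by rw [e2]; norm_num)⟩
  simp at h7
  linarith

/-- the stored phases -/
def Lev (μ : ℝ) (z : Bool → ℂ) (ω : ℂ) (c : ℝ) (P : Prop) : Prop :=
  ∀ j : ℕ, |μ⁻¹ - 8 - j| ≤ 1 → ∃ x : ℝ, 0 ≤ x ∧ x ≤ c * (1 / 8) ^ j ∧ z j.bodd = x * ω ^ 2 ^ j ∧
    (|μ⁻¹ - 8 - j| ≤ 1 / 2 → P → 1 / 128 * (1 / 8) ^ j ≤ x)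

theorem Lev.norm_le {μ c : ℝ} {z : Bool → ℂ} {ω : ℂ} {P : Prop} (h : Lev μ z ω c P) (hω : ‖ω‖ = 1)
    (h0 : 0 < μ) (h1 : μ ≤ 1 / 8) (k : Bool) : ‖z k‖ ≤ c := by
  have h2 : 0 ≤ μ⁻¹ - 8 := by
    have := inv_anti₀ h0 h1
    norm_num at this
    linarith
  have h3 := Nat.floor_le h2
  have h4 := Nat.lt_floor_add_one (μ⁻¹ - 8)
  obtain ⟨j, hj, rfl⟩ : ∃ j : ℕ, |μ⁻¹ - 8 - j| ≤ 1 ∧ j.bodd = k := by
    by_cases e : ⌊μ⁻¹ - 8⌋₊.bodd = k
    · exact ⟨_, abs_le.mpr ⟨by linarith, by linarith⟩, e⟩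
    · refine ⟨⌊μ⁻¹ - 8⌋₊ + 1, abs_le.mpr ⟨by push_cast; linarith, by push_cast; linarith⟩, ?_⟩
      rw [Nat.bodd_succ]
      cases k <;> simpa using e
  obtain ⟨x, a, b, e, -⟩ := h j hj
  rw [e, norm_mul, norm_pow, hω, one_pow, mul_one, norm_real, Real.norm_of_nonneg a]
  have h5 : (0 : ℝ) < (1 / 8) ^ j := by positivity
  exact b.trans (mul_le_of_le_one_right (nonneg_of_mul_nonneg_left (a.trans b) h5)
    (pow_le_one₀ (by norm_num) (by norm_num)))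

theorem g_inv {μ : ℝ} (h0 : 0 < μ) : (μ / (1 - μ))⁻¹ = μ⁻¹ - 1 := by
  rw [inv_div]; field_simp

theorem Lev.shift {μ c : ℝ} {z : Bool → ℂ} {ω : ℂ} {P : Prop} (h : Lev μ z ω c P) (h0 : 0 < μ)
    {p : ℝ} (hp : 0 ≤ p) (hp' : p ≤ 1) :
    Lev (μ / (1 - μ)) (fun k => (8 * p : ℝ) * z (!k)) (ω ^ 2) c (P ∧ p = 1) := by
  intro j hj
  have e : (μ / (1 - μ))⁻¹ - 8 - j = μ⁻¹ - 8 - (j + 1 : ℕ) := by rw [g_inv h0]; push_cast; ring
  rw [e] at hj ⊢
  obtain ⟨x, a, b, c, d⟩ := h (j + 1) hj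
  rw [Nat.bodd_succ] at c
  rw [pow_succ] at b d
  refine ⟨8 * p * x, by positivity, by nlinarith, ?_, fun u v => ?_⟩
  · simp only [c, ← pow_mul, pow_succ']
    push_cast
    ring
  · have := d u v.1
    rw [v.2]
    linarith

theorem Lev.add {μ c c' : ℝ} {z z' : Bool → ℂ} {ω : ℂ} {P P' : Prop} (h : Lev μ z ω c P)
    (h' : Lev μ z' ω c' P') : Lev μ (fun k => z k + z' k) ω (c + c') (P ∨ P') := by
  intro j hj
  obtain ⟨x, a, b, e, d⟩ := h j hj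
  obtain ⟨x', a', b', e', d'⟩ := h' j hj
  refine ⟨x + x', by positivity, by linarith, by simp [e, e', add_mul], fun u v => ?_⟩
  rcases v with v | v
  · linarith [d u v]
  · linarith [d' u v]

theorem Lev.mono {μ c : ℝ} {z z' : Bool → ℂ} {ω : ℂ} {P P' : Prop} (h : Lev μ z ω c P)
    (hz : ∀ k, z' k = z k) (hP : P' → P) : Lev μ z' ω c P' := fun j hj => by
  obtain ⟨x, a, b, e, d⟩ := h j hj
  exact ⟨x, a, b, (hz _).trans e, fun u v => d u (hP v)⟩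

theorem On.lev_GG (h : On a) (hb : ¬ Big 4096 a) {μ s : ℝ} {ω : ℂ} (h0 : 0 < μ) (hs : 0 ≤ s)
    (hω : ‖ω‖ = 1) (hW : WW a = s * ω) {p : ℝ} (hp : 0 ≤ p) (hp' : p ≤ 1) :
    Lev μ (fun k => p * GG k (μ, zt a)) (ω ^ 2) (1 / 64) (p = 1 ∧ 2 * μ ^ 2 ≤ 1 + ZZ a) := by
  intro j hj
  have h1 := h.lt_one hb
  have h2 : zt a = ((1 - ZZ a) * s : ℝ) * ω := by
    have : ((1 - ZZ a : ℝ) : ℂ) ≠ 0 := by exact_mod_cast (by linarith)
    rw [ofReal_mul, mul_assoc, ← hW, WW, mul_div_cancel₀ _ this]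
  have h3 : 0 ≤ (1 - ZZ a) * s := mul_nonneg (by linarith) hs
  obtain ⟨x, u1, u2, u3, u4⟩ := GG_phase h0 hj h3 hω
  refine ⟨p * x, by positivity, by nlinarith, ?_, fun u v => ?_⟩
  · simp only [h2, u3]
    push_cast
    ring
  · rw [v.1, one_mul]
    refine u4 u ?_
    have h4 := h.zt_sq
    rw [h2, norm_mul, hω, mul_one, norm_real, Real.norm_of_nonneg h3] at h4
    have h5 : 1 ≤ (j + 9) * μ := by
      have := mul_inv_cancel₀ h0.ne'
      have := (abs_le.mp u).2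
      nlinarith
    have h6 : 1 ≤ 4096 ^ 2 * (1 - ZZ a) := by
      rw [Big] at hb
      nlinarith
    have h7 : 1 ≤ ((j : ℝ) + 9) ^ 2 * (1 + ZZ a) := by
      have := mul_le_mul_of_nonneg_left v.2 (sq_nonneg ((j : ℝ) + 9))
      nlinarith
    rw [mul_pow, h4, mul_pow]
    nlinarith [mul_le_mul h6 h7 zero_le_one (by linarith)]

structure Inv (a : AA) (ω : ℂ) : Prop where
  t1 : -2 ≤ tt a
  t2 : tt a ≤ 0
  m1 : 0 < mu a
  m2 : mu a ≤ 2 / 17
  w1 : ‖ω‖ = 1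
  w2 : ∃ s : ℝ, 0 ≤ s ∧ WW a = s * ω
  w3 : mu a < 1 / 20 → WW a = 0
  lev : Lev (mu a) (fun k => zc k a) ω (1 / 32) True

theorem On.inv_step (h : On a) (hb : ¬ Big 4096 a) (hb' : ¬ Big 4096 (FF a)) {ω : ℂ}
    (hi : Inv a ω) : Inv (FF a) (ω ^ 2) := by
  obtain ⟨t1, t2, m1, m2, w1, ⟨s, hs, w2⟩, w3, lev⟩ := hi
  have hz := h.lt_one hb
  have n1 := lev.norm_le w1 m1 (by linarith)
  have e1 : push a = 0 := by
    rw [push, bump_zero (by linarith), add_zero]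
    rcases lt_or_ge (mu a) (1 / 20) with e | e
    · have := h.W_sq hz
      rw [w3 e] at this
      have n2 : ∀ k, S (‖zc k a‖ ^ 2 - 1 / 1024) = 0 := fun k =>
        S0 (by nlinarith [n1 k, norm_nonneg (zc k a)])
      rw [n2, n2, ← this]
      simp
    · rw [S0 (x := 1 / 20 - _) (by linarith)]; ring
  have e2 : mu' a = mu a / (1 - mu a) := by
    rw [mu', ee_one hb, rs_zero (by linarith), e1, add_zero, sat_eq]
    · ring
    · rw [div_le_iff₀ (by linarith)]; linarith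
  obtain ⟨z1, z2⟩ := h.W_FF hz
  have e3 : a0 (tt a) = 0 := a0_zero (by linarith)
  have i0 := mul_inv_cancel₀ m1.ne'
  have e4 : ∃ x : ℝ, 0 ≤ x ∧ bb a = x * ω ^ 2 ∧ (2 / 19 ≤ mu a → 4096 < x) := by
    rcases le_total (mu a) (1 / 10) with e | e
    · exact ⟨0, le_rfl, by simp [bb, S0 (x := 190 * mu a - 19) (by linarith)],
        fun _ => by linarith⟩
    · obtain ⟨x, u1, -, u3, u4⟩ := lev 1 (abs_le.mpr ⟨by push_cast; nlinarith, by push_cast; nlinarith⟩)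
      refine ⟨2 ^ 23 * S (190 * mu a - 19) * x, mul_nonneg (mul_nonneg (by norm_num) (Sn _)) u1, ?_,
        fun e' => ?_⟩
      · rw [bb, e3, show zc true a = _ from u3]
        push_cast
        ring
      · have := u4 (abs_le.mpr ⟨by push_cast; nlinarith, by push_cast; nlinarith⟩) trivial
        rw [S1 (by linarith)]
        linarith
  obtain ⟨x, u1, u2, u3⟩ := e4
  have c0 := (cc_mem a).1
  have e5 : WW (FF a) = (cc a * s ^ 2 + x : ℝ) * ω ^ 2 := by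
    rw [z2, w2, u2]; push_cast; ring
  have m3 : mu a < 2 / 19 := by
    by_contra! e
    refine hb' (h.map.big_of z1 (by norm_num) ?_)
    rw [e5, norm_mul, norm_pow, w1, one_pow, mul_one, norm_real, Real.norm_of_nonneg (by positivity)]
    nlinarith [u3 e, mul_nonneg c0 (sq_nonneg s)]
  have m4 : mu' a ≤ 2 / 17 := by rw [e2, div_le_iff₀ (by linarith)]; linarith
  have e6 : ∀ k, yy k a = (8 * 1 : ℝ) * zc (!k) a := fun k => by simp [yy, e3, be_zero t1]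
  have t3 := h.tt_near hb (by linarith) (by linarith) (by linarith)
  refine ⟨t3 ▸ (near_mem t1 t2).1, t3 ▸ (near_mem t1 t2).2, ?_, (mu_FF a).trans_le m4,
    by rw [norm_pow, w1, one_pow], ⟨_, by positivity, e5⟩, fun e => ?_, ?_⟩
  · rw [mu_FF, e2]
    exact div_pos m1 (by linarith)
  · rw [mu_FF, e2] at e
    have := h.le_g
    have e' : mu a < 1 / 20 := by nlinarith
    rw [z2, w3 e', bb, S0 (x := 190 * mu a - 19) (by linarith)]
    simp
  · rw [mu_FF, e2]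
    refine (lev.shift m1 zero_le_one le_rfl).mono (fun k => ?_) fun _ => ⟨trivial, rfl⟩
    rw [zc'_eq hb, e6]
    rw [e6, norm_mul, norm_real]
    norm_num
    linarith [n1 (!k)]

structure Mid (b : AA) (ω : ℂ) : Prop where
  t1 : -3 ≤ tt b
  t2 : tt b ≤ -2
  m0 : 0 < mu b
  m2 : mu b ≤ 1 / 10
  w1 : ‖ω‖ = 1
  w2 : ∃ s : ℝ, 0 ≤ s ∧ WW b = s * ω
  w3 : mu b ≤ 1 / 20 → ZZ b ≤ 0
  k2 : tt b ≤ -9 / 4 → 200 * mu b ^ 2 ≤ 1 + ZZ b
  y2 : tt b ≤ -5 / 2 → ∀ k, zc k b = 0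
  l1 : Lev (mu b) (fun k => zc k b) ω (1 / 64) (-9 / 4 ≤ tt b)

theorem On.mid (h : On a) (hb : ¬ Big 4096 a) (t1 : -4 ≤ tt a)
    (t2 : tt a ≤ -3) (hz : ZZ a ≠ -1) : ∃ ω, Mid (FF a) ω := by
  have z0 := h.lt_one hb
  have z0' := h.Z_mem.1.lt_of_ne' hz
  have s0 := h.W_sq z0
  obtain ⟨ω, w1, w2⟩ : ∃ ω : ℂ, ‖ω‖ = 1 ∧ WW a = ‖WW a‖ * ω :=
    ⟨_, norm_exp_ofReal_mul_I _, (norm_mul_exp_arg_mul_I _).symm⟩
  have t3 := h.tt_far (by linarith)
  have m1 : mu (FF a) = (1 + ZZ a) / 20 := by rw [mu_FF, mu', ee_one hb, rs_one t1 t2]; ring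
  obtain ⟨z1, z2⟩ := h.W_FF z0
  rw [show bb a = 0 by simp [bb, a0_one t1 t2], add_zero] at z2
  obtain ⟨c0, c1⟩ := cc_mem a
  have w3 : WW (FF a) = (cc a * ‖WW a‖ ^ 2 : ℝ) * ω ^ 2 := by
    rw [z2]; nth_rewrite 1 [w2]; push_cast; ring
  have w4 : ‖ω ^ 2‖ = 1 := by rw [norm_pow, w1, one_pow]
  have s1 := h.map.W_sq z1
  rw [w3, norm_mul, w4, mul_one, norm_real, Real.norm_of_nonneg (by positivity)] at s1
  have m0 : 0 < mu (FF a) := by rw [m1]; linarith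
  have m2 : mu (FF a) ≤ 1 / 10 := by rw [m1]; linarith
  have l1 := h.lev_GG hb m0 (norm_nonneg _) w1 w2 (p := be (tt a)) (SS0 _ _) (SS1 _ _)
  have y1 : ∀ k, yy k a = be (tt a) * GG k (mu (FF a), zt a) := fun k => by
    simp [yy, a0_one t1 t2, mu_FF]
  have y2 : ∀ k, zc k (FF a) = be (tt a) * GG k (mu (FF a), zt a) := fun k => by
    rw [zc'_eq hb, y1]
    rw [y1]
    linarith [l1.norm_le w4 m0 (by linarith) k]
  have z3 := h.map.Z_mem.1
  have : 0 ≤ ‖WW a‖ ^ 2 := by positivity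
  refine ⟨_, by linarith, by linarith, m0, m2, w4, ⟨_, by positivity, w3⟩, fun e => ?_, fun e => ?_,
    fun e k => ?_, l1.mono y2 fun e => ⟨?_, by rw [m1]; nlinarith⟩⟩
  · generalize ‖WW a‖ ^ 2 = σ at *
    have h1 : σ ≤ 1 := by nlinarith
    have h2 : (cc a * σ) ^ 2 ≤ 1 := pow_le_one₀ (by positivity) (mul_le_one₀ c1 this h1)
    nlinarith
  · rw [show cc a = 1 by rw [cc, ka, S1 (by linarith), S1 (by linarith)]; ring, one_mul] at s1
    generalize ‖WW a‖ ^ 2 = σ at *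
    suffices (1 + ZZ a) ^ 2 ≤ 2 * (1 + ZZ (FF a)) by rw [m1]; linarith
    refine le_of_mul_le_mul_right (?_ : _ * (1 + σ) ^ 2 ≤ _) (by positivity)
    have h1 : (1 + ZZ a) * (1 + σ) = 2 * σ := by linarith
    rw [← mul_pow, h1]
    nlinarith [mul_nonneg this (show 0 ≤ 1 + ZZ (FF a) by linarith)]
  · simp [y2, be, S0 (x := 4 * tt a + 14) (by linarith)]
  · rw [be, S1 (by linarith), S1 (by linarith), mul_one]

theorem On.inv_start {b : AA} (h : On b) (hb : ¬ Big 4096 b) {ω : ℂ} (hm : Mid b ω) :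
    Inv (FF b) (ω ^ 2) := by
  obtain ⟨t1, t2, m0, m2, w1, ⟨s, hs, w2⟩, w3, k2, y2, l1⟩ := hm
  have z1 := h.lt_one hb
  have g1 : mu b ≤ mu b / (1 - mu b) := by nlinarith [sq_nonneg (mu b), h.le_g]
  have g2 : mu b / (1 - mu b) ≤ 10 / 9 * mu b := by rw [div_le_iff₀ (by linarith)]; nlinarith
  have r0 : 0 ≤ rs (tt b) := SS0 _ _
  have r1 : rs (tt b) ≤ 1 := SS1 _ _
  have e2 : mu' b = (1 - rs (tt b)) * (mu b / (1 - mu b)) + rs (tt b) * ((1 + ZZ b) / 20) := by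
    rw [mu', ee_one hb, push, ell_zero (by linarith), bump_zero (by linarith), zero_mul, zero_mul,
      add_zero, add_zero, sat_eq (by linarith), one_mul]
  have z3 := h.Z_mem.1
  have m5 : min (mu b) ((1 + ZZ b) / 20) ≤ mu' b := by
    rw [e2]
    nlinarith [min_le_left (mu b) ((1 + ZZ b) / 20), min_le_right (mu b) ((1 + ZZ b) / 20)]
  have m6 : mu' b ≤ max (10 / 9 * mu b) ((1 + ZZ b) / 20) := by
    rw [e2]
    nlinarith [le_max_left (10 / 9 * mu b) ((1 + ZZ b) / 20),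
      le_max_right (10 / 9 * mu b) ((1 + ZZ b) / 20)]
  have m7 : -5 / 2 ≤ tt b → mu b / (1 - mu b) = mu' b := fun e => by rw [e2, rs_zero e]; ring
  clear e2 r0 r1
  have m3 : 0 < mu' b := by
    rcases le_total (tt b) (-5 / 2) with e | e
    · have := k2 (by linarith)
      exact (lt_min m0 (by nlinarith)).trans_le m5
    · linarith [m7 e]
  have m4 : mu' b ≤ 1 / 9 := m6.trans (max_le (by linarith) (by linarith))
  have k3 : tt b ≤ -9 / 4 → 2 * mu' b ^ 2 ≤ 1 + ZZ b := fun e => by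
    have h1 := k2 e
    rcases le_max_iff.mp m6 with h2 | h2 <;> nlinarith
  obtain ⟨z4, z5⟩ := h.W_FF z1
  rw [show bb b = 0 by simp [bb, S0 (x := 190 * mu b - 19) (by linarith)], add_zero] at z5
  obtain ⟨a1, a2⟩ := a0_mem (tt b)
  have l2 := h.lev_GG hb m3 hs w1 w2 (p := be (tt b)) (SS0 _ _) (SS1 _ _)
  have w6 : ‖ω ^ 2‖ = 1 := by rw [norm_pow, w1, one_pow]
  have b1 : tt b ≤ -9 / 4 → be (tt b) = 1 := fun e => by
    rw [be, S1 (by linarith), S1 (by linarith), mul_one]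
  have l3 : Lev (mu' b) (fun k => yy k b) (ω ^ 2) (1 / 64 + 1 / 64) True := by
    rcases le_total (tt b) (-5 / 2) with e | e
    · have l0 : Lev (mu' b) (fun _ => 0) (ω ^ 2) (1 / 64) False := fun j _ =>
        ⟨0, le_rfl, by positivity, by simp, fun _ => False.elim⟩
      refine (l0.add l2).mono (fun k => ?_) fun _ => .inr ⟨b1 (by linarith), k3 (by linarith)⟩
      simp [yy, y2 e]
    · have l0 := l1.shift m0 (p := 1 - a0 (tt b)) (by linarith) (by linarith)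
      rw [m7 e] at l0
      refine (l0.add l2).mono (fun k => rfl) fun _ => ?_
      rcases le_total (tt b) (-9 / 4) with e | e
      · exact .inr ⟨b1 e, k3 e⟩
      · exact .inl ⟨e, by rw [a0_zero e, sub_zero]⟩
  have t4 := h.tt_far t2
  refine ⟨by linarith, by linarith, (mu_FF b).symm ▸ m3, (mu_FF b).trans_le (by linarith), w6,
    ⟨cc b * s ^ 2, mul_nonneg (cc_mem b).1 (by positivity), ?_⟩, fun e => ?_, ?_⟩
  · rw [z5, w2]; push_cast; ring
  · rw [z5, cc, ka, S0 (x := _ - 12) (by linarith), S0 (x := 2 * ZZ b)]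
    · simp
    rw [mu_FF] at e
    rcases min_le_iff.mp (m5.trans e.le) with e' | e'
    · linarith [w3 e']
    · linarith
  · rw [mu_FF, show (1 : ℝ) / 32 = 1 / 64 + 1 / 64 by norm_num]
    exact l3.mono (fun k => zc'_eq hb (by linarith [l3.norm_le w6 m3 (by linarith) k])) id

/-- the states reached after the reset window -/
def Calm (a : AA) : Prop := (∃ ω, Inv a ω) ∨
  (-2 ≤ tt a ∧ tt a ≤ 0 ∧ ZZ a = -1 ∧ mu a = 0 ∧ ∀ k, zc k a = 0)

theorem On.calm_step (h : On a) (hb : ¬ Big 4096 a) (hb' : ¬ Big 4096 (FF a)) (hc : Calm a) :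
    Calm (FF a) := by
  rcases hc with ⟨ω, hc⟩ | ⟨t1, t2, hz, hc⟩
  · exact .inl ⟨_, h.inv_step hb hb' hc⟩
  · obtain ⟨h1, h2, h3, h4⟩ := h.calm0 hz (by linarith) (by linarith) (.inr hc)
    exact .inr ⟨h4 ▸ (near_mem t1 t2).1, h4 ▸ (near_mem t1 t2).2, h1, (mu_FF a).trans h2,
      fun k => (zc_FF k a).trans (h3 k)⟩

theorem On.calm_start (h : On a) (hb : ¬ Big 4096 a) (hb' : ¬ Big 4096 (FF a)) (t1 : -4 ≤ tt a)
    (t2 : tt a ≤ -3) : Calm (FF (FF a)) := by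
  by_cases hz : ZZ a = -1
  · obtain ⟨h1, h2, h3, -⟩ := h.calm0 hz t1 (by linarith) (.inl t2)
    have t3 := h.tt_far (by linarith)
    obtain ⟨h4, h5, h6, -⟩ := h.map.calm0 h1 (by linarith) (by linarith)
      (.inr ⟨(mu_FF a).trans h2, fun k => (zc_FF k a).trans (h3 k)⟩)
    have t4 := h.map.tt_far (by linarith)
    exact .inr ⟨by linarith, by linarith, h4, (mu_FF _).trans h5, fun k => (zc_FF k _).trans (h6 k)⟩
  · obtain ⟨ω, hm⟩ := h.mid hb t1 t2 hz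
    exact .inl ⟨_, h.map.inv_start hb' hm⟩

theorem On.after (h : On a) (t1 : -4 < tt a) (t2 : tt a ≤ -3) (n : ℕ)
    (hb : ∀ k ≤ n, ¬ Big 4096 (FF^[k] a)) : -4 < tt (FF^[n] a) := by
  rcases n with _ | _ | n
  · exact t1
  · have := h.tt_far (by linarith)
    change -4 < tt (FF a)
    linarith
  have : Calm (FF^[n + 2] a) := by
    induction n with
    | zero => exact h.calm_start (hb 0 (by omega)) (hb 1 (by omega)) t1.le t2
    | succ n ih =>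
      have := hb (n + 2 + 1) le_rfl
      rw [Function.iterate_succ_apply'] at this ⊢
      exact (h.iter _).calm_step (hb _ (by omega)) this (ih fun k hk => hb k (by omega))
  rcases this with ⟨ω, hc⟩ | hc
  · linarith [hc.t1]
  · linarith [hc.1]

end Vale.Agent.P103
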